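import Vale.Agent.P198.G.Main
import Vale.Agent.P198.T.Main

/-! # P198 block A: definitions (FROZEN, helper30; see notes/P198A.md) -/

namespace Vale.Agent.P198
open Set Metric Filter Topology
open scoped Pointwise
variable {G Z : Type} [Group G] [MetricSpace Z] [MulAction G Z]

/-- A path-connected set with two points at distance at least `d`. -/
def DS (d : ℝ) (K : Set Z) : Prop := IsPathConnected K ∧ ∃ a ∈ K, ∃ b ∈ K, d ≤ dist a b

/-- `K` meets the cell of `x` at level `k`. -/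
def GP.Mt (X : GP G Z) (k : ℕ) (K : Set Z) (x : G) : Prop :=
  ∃ ξ ∈ K, dist ξ (X.π x) < 2 * X.C * X.q ^ k

open Classical in
/-- The weight of the indices with property `p`. -/
noncomputable def wtA {ι : Type} (F : Finset ι) (w : ι → ℝ) (p : ι → Prop) : ℝ :=
  ∑ i ∈ F.filter p, w i

/-- The energy at level `k` of a weighted family of sets. -/
noncomputable def GP.en (X : GP G Z) (k : ℕ) {ι : Type} (F : Finset ι) (w : ι → ℝ)
    (L : ι → Set Z) : ℝ := ∑ x ∈ X.S k, wtA F w (fun i => X.Mt k (L i) x) ^ 2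

/-- `m` is a lower bound for the energy of probability families at level `k`. -/
def GP.Lower (X : GP G Z) (d : ℝ) (k : ℕ) (m : ℝ) : Prop :=
  ∀ (ι : Type) (F : Finset ι) (w : ι → ℝ) (L : ι → Set Z), (∀ i, 0 ≤ w i) →
    (∀ i ∈ F, DS d (L i)) → m * (∑ i ∈ F, w i) ^ 2 ≤ X.en k F w L

/-- Two far closed discs with their boundary circles, and a point inside the first. -/
structure Frame (Z : Type) [MetricSpace Z] (d : ℝ) where
  D₁ : Set Z
  D₂ : Set Z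
  A₁ : Set Z
  A₂ : Set Z
  η : Z
  cl₁ : IsClosed D₁
  cl₂ : IsClosed D₂
  sub₁ : A₁ ⊆ D₁
  sub₂ : A₂ ⊆ D₂
  fr₁ : frontier D₁ ⊆ A₁
  fr₂ : frontier D₂ ⊆ A₂
  pc₁ : IsPathConnected A₁
  pc₂ : IsPathConnected A₂
  mem : η ∈ D₁
  nmem : η ∉ A₁
  far : ∀ a ∈ D₁, ∀ b ∈ D₂, d / 2 ≤ dist a b

variable {d : ℝ}

/-- A curve from the first disc to the second whose interior misses both. -/
structure Leaf (Φ : Frame Z d) (K : Set Z) : Prop where
  pc : IsPathConnected K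
  nmem : Φ.η ∉ K
  e₁ : ∃ a ∈ K ∩ Φ.A₁, ∀ v ∈ K \ (Φ.D₁ ∪ Φ.D₂), JoinedIn (K \ Φ.D₂) a v
  e₂ : ∃ b ∈ K ∩ Φ.A₂, ∀ v ∈ K \ (Φ.D₁ ∪ Φ.D₂), JoinedIn (K \ Φ.D₁) b v

/-- A probability family of leaves with almost record small energy. -/
structure Conf (X : GP G Z) (Φ : Frame Z d) (P : ℝ) where
  ι : Type
  F : Finset ι
  w : ι → ℝ
  L : ι → Set Z
  k : ℕ
  m : ℝ
  nonneg : ∀ i, 0 ≤ w i
  sum : ∑ i ∈ F, w i = 1
  leaf : ∀ i ∈ F, Leaf Φ (L i)
  pos : 0 < m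
  up : X.en k F w L ≤ P * m
  low : ∀ j ≤ k, X.Lower d j m

variable {X : GP G Z} {Φ : Frame Z d} {P : ℝ}

/-- The weight of the leaves that meet `K`. -/
noncomputable def Conf.mass (c : Conf X Φ P) (K : Set Z) : ℝ :=
  wtA c.F c.w fun i => (c.L i ∩ K).Nonempty

/-- The `t`-neighbourhood of `y • K`. -/
def thick (t : ℝ) (y : G) (K : Set Z) : Set Z := {ξ | ∃ ζ ∈ K, dist ξ (y • ζ) ≤ t}

/-- The leaf `i` misses the ball of radius `s'` but is joined to the ball of radius `s` by a light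
connected set. -/
def Conf.Esc (c : Conf X Φ P) (p : Z) (s s' δ : ℝ) (i : c.ι) : Prop :=
  Disjoint (c.L i) (closedBall p s') ∧ c.mass (c.L i) ≤ δ ∧ ∃ σ : Set Z, IsPathConnected σ ∧
    Disjoint σ (Φ.D₁ ∪ Φ.D₂) ∧ (σ ∩ c.L i).Nonempty ∧ (σ ∩ closedBall p s).Nonempty ∧ c.mass σ ≤ δ

/-- Good leaves. -/
def Conf.Good (c : Conf X Φ P) (J : ℕ) (θ κ Λ δ : ℝ) (i : c.ι) : Prop :=
  ∀ y ∈ X.B (2 * J), c.mass (thick (θ * X.q ^ c.k) y (c.L i)) ≤ δ ∧
    (Disjoint (closedBall (X.π y) (Λ * (κ * X.q ^ X.ν y))) (Φ.D₁ ∪ Φ.D₂) →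
      ¬ c.Esc (X.π y) (κ * X.q ^ X.ν y) (Λ * (κ * X.q ^ X.ν y)) δ i)

open Classical in
/-- The shadows of level `J` that `K` meets at distance at least `r` from the discs. -/
noncomputable def GP.Y (X : GP G Z) (Φ : Frame Z d) (r : ℝ) (J : ℕ) (K : Set Z) : Finset G :=
  (X.S J).filter fun y => ∃ ξ ∈ K, dist ξ (X.π y) ≤ X.C * X.q ^ J ∧
    ∀ ω ∈ Φ.D₁ ∪ Φ.D₂, r ≤ dist ξ ω

open Classical in
/-- The out-neighbours of `g` in the tournament. -/
noncomputable def GP.Out (X : GP G Z) (κ : ℝ) (j₀ J : ℕ) (K : Set Z) (g : G) : Finset G :=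
  (X.B (2 * J)).filter fun y => X.ν (y⁻¹ * g) = J ∧
    (X.ν y < j₀ ∨ ∃ ξ ∈ K, dist ξ (X.π y) ≤ κ * X.q ^ X.ν y)

/-- Leaves of weight at least `η` meet at least `x` shadows of level `J`. -/
def SS (X : GP G Z) (Φ : Frame Z d) (P r : ℝ) (J : ℕ) (x η : ℝ) : Prop :=
  ∀ ε > 0, ∃ c : Conf X Φ P, c.m ≤ ε ∧ X.q ^ c.k ≤ ε ∧
    η ≤ wtA c.F c.w fun i => x ≤ ((X.Y Φ r J (c.L i)).card : ℝ)

open Classical in
/-- The growth and cone bounds of `GP.cone`. -/
def GP.Cone (X : GP G Z) (N D : ℕ) : Prop :=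
  2 ≤ D ∧ (∀ j, (X.B j).card ≤ D ^ j) ∧
    ∀ (g : G) (j t : ℕ), ((X.S j).filter fun y => t ≤ gp X.ν y g).card ≤ N * D ^ (j - t)

section wtA
variable {ι : Type} {F : Finset ι} {w : ι → ℝ} {p p' : ι → Prop}

theorem wt_nonneg (hw : ∀ i, 0 ≤ w i) : 0 ≤ wtA F w p := Finset.sum_nonneg fun i _ => hw i

theorem wt_mono (hw : ∀ i, 0 ≤ w i) (h : ∀ i ∈ F, p i → p' i) : wtA F w p ≤ wtA F w p' := by
  classical
  refine Finset.sum_le_sum_of_subset_of_nonneg (fun i hi => ?_) fun i _ _ => hw i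
  simp only [Finset.mem_filter] at hi ⊢
  exact ⟨hi.1, h i hi.1 hi.2⟩

open Classical in
theorem wt_eq : wtA F w p = ∑ i ∈ F, if p i then w i else 0 := by
  unfold wtA; rw [Finset.sum_filter]

theorem wt_le_sum (hw : ∀ i, 0 ≤ w i) : wtA F w p ≤ ∑ i ∈ F, w i := by
  classical
  exact Finset.sum_le_sum_of_subset_of_nonneg (Finset.filter_subset _ _) fun i _ _ => hw i

theorem wt_or_le (hw : ∀ i, 0 ≤ w i) : wtA F w (fun i => p i ∨ p' i) ≤ wtA F w p + wtA F w p' := by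
  simp only [wt_eq, ← Finset.sum_add_distrib]
  refine Finset.sum_le_sum fun i _ => ?_
  have := hw i
  by_cases h : p i <;> by_cases h' : p' i <;> simp [h, h', this]

/-- The union bound. -/
theorem wt_exists_le (hw : ∀ i, 0 ≤ w i) {α : Type} (s : Finset α) (Q : α → ι → Prop) :
    wtA F w (fun i => ∃ a ∈ s, Q a i) ≤ ∑ a ∈ s, wtA F w (Q a) := by
  classical
  induction s using Finset.induction_on with
  | empty => simp [wtA]
  | insert a s ha ih =>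
    rw [Finset.sum_insert ha]
    refine le_trans (wt_mono hw fun i _ hi => ?_) ((wt_or_le hw).trans (add_le_add_right ih _))
    simpa using hi

theorem exists_of_wt_pos (h : 0 < wtA F w p) : ∃ i ∈ F, p i := by
  classical
  obtain ⟨i, hi⟩ := Finset.nonempty_of_sum_ne_zero h.ne'
  exact ⟨i, (Finset.mem_filter.1 hi).1, (Finset.mem_filter.1 hi).2⟩

end wtA

end Vale.Agent.P198
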