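import Vale.Agent.P198.A.Defs

/-! P198 A/Disc: frames and trimming.
`sph_disc`: `e` from `sph_chart hZ p`, `D = (e.symm '' ball 0 R)ᶜ`, `A = e.symm '' sphere 0 R` (`isPathConnected_sphere`), `R` bounds `e` on the
compact set `(ball p ε)ᶜ`; `e.symm '' closedBall 0 R` is compact and misses `p`. `exists_frames`: cover by the interiors of finitely many discs
of radius `d / 8`, index by the pairs of discs that are far. `trim`: a path `γ` in `K` from `a` to `b`, `t₁` the last time in `D₁`, `t₂` the first time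
after `t₁` in `D₂`, `K' = γ.extend '' Icc t₁ t₂` (`JoinedIn.ofLine` or `IsPathConnected.image` of intervals). Auxiliary names end in `_disc`. -/

namespace Vale.Agent.P198
open Set Metric Filter Topology
open scoped Pointwise
variable {G Z : Type} [Group G] [MetricSpace Z] [CompactSpace Z] [MulAction G Z]
  [ContinuousConstSMul G Z] {d : ℝ}

theorem sph_disc (hZ : Nonempty (Z ≃ₜ S2)) (p : Z) {ε : ℝ} (hε : 0 < ε) : ∃ D A : Set Z,
    IsClosed D ∧ D ∈ 𝓝 p ∧ D ⊆ ball p ε ∧ frontier D ⊆ A ∧ A ⊆ D ∧ p ∉ A ∧ IsPathConnected A := by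
  obtain ⟨e, hs, ht⟩ := sph_chart hZ p
  have hc := log_symm_cont ht
  obtain ⟨h1, h2⟩ := log_bound hs (K := (ball p ε)ᶜ) isOpen_ball.isClosed_compl
    fun h => h (mem_ball_self hε)
  obtain ⟨R, hR, h3⟩ := h2.isBounded.subset_ball_lt 0 0
  have hm : ∀ w, w ∈ e.target := fun w => ht ▸ mem_univ w
  have hn : ∀ S : Set ℂ, p ∉ e.symm '' S := by
    rintro S ⟨w, -, hw⟩
    have := e.map_target (hm w)
    rw [hs] at this
    exact this hw
  have hU : IsOpen (e.symm '' ball 0 R) :=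
    e.symm.isOpen_image_of_subset_source isOpen_ball fun w _ => hm w
  have hC : IsClosed (e.symm '' closedBall 0 R) := ((isCompact_closedBall _ R).image hc).isClosed
  have hUC : e.symm '' ball 0 R ⊆ e.symm '' closedBall 0 R := image_mono ball_subset_closedBall
  refine ⟨(e.symm '' ball 0 R)ᶜ, e.symm '' sphere 0 R, hU.isClosed_compl,
    mem_of_superset (hC.isOpen_compl.mem_nhds (hn _)) (compl_subset_compl.2 hUC), fun z hz => ?_,
    fun z hz => ?_, ?_, hn _, (isPathConnected_sphere ?_ 0 hR.le).image hc⟩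
  · by_contra h
    exact hz ⟨e z, h3 ⟨z, h, rfl⟩, e.left_inv (h1 h)⟩
  · rw [frontier_compl, hU.frontier_eq] at hz
    obtain ⟨w, hw, rfl⟩ := closure_minimal hUC hC hz.1
    exact ⟨w, le_antisymm hw (not_lt.1 fun h => hz.2 ⟨w, h, rfl⟩), rfl⟩
  · rintro _ ⟨w, hw, rfl⟩ ⟨w', hw', h⟩
    rw [e.symm.injOn (hm _) (hm _) h] at hw'
    exact (mem_ball.1 hw').ne hw
  · rw [← Module.finrank_eq_rank]
    simp

theorem exists_frames (hZ : Nonempty (Z ≃ₜ S2)) (hd : 0 < d) : ∃ s : Finset (Frame Z d),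
    ∀ a b : Z, d ≤ dist a b → ∃ Φ ∈ s, a ∈ Φ.D₁ ∧ b ∈ Φ.D₂ := by
  classical
  choose D A k1 k2 k3 k4 k5 k6 k7 using fun p : Z => sph_disc hZ p (ε := d / 8) (by positivity)
  obtain ⟨t, ht⟩ := CompactSpace.elim_nhds_subcover D k2
  let Φ : {x : Z × Z // 3 * d / 4 ≤ dist x.1 x.2} → Frame Z d := fun x =>
    ⟨D x.1.1, D x.1.2, A x.1.1, A x.1.2, x.1.1, k1 _, k1 _, k5 _, k5 _, k4 _, k4 _, k7 _, k7 _,
      mem_of_mem_nhds (k2 _), k6 _, fun a ha b hb => by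
        have h1 := mem_ball.1 (k3 _ ha)
        have h2 := mem_ball.1 (k3 _ hb)
        have h4 := dist_triangle x.1.1 a x.1.2
        have h5 := dist_triangle a b x.1.2
        rw [dist_comm x.1.1 a] at h4
        linarith [x.2]⟩
  refine ⟨((t ×ˢ t).subtype _).image Φ, fun a b hab => ?_⟩
  have hc : ∀ z, ∃ p ∈ t, z ∈ D p := fun z => by
    have : z ∈ ⋃ p ∈ t, D p := ht ▸ mem_univ z
    simpa using this
  obtain ⟨p, hp, ha⟩ := hc a
  obtain ⟨q, hq, hb⟩ := hc b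
  have h1 := mem_ball.1 (k3 _ ha)
  have h2 := mem_ball.1 (k3 _ hb)
  have h3 := dist_triangle a p b
  have h4 := dist_triangle_right p b q
  exact ⟨Φ ⟨(p, q), by linarith⟩, Finset.mem_image_of_mem _
    (Finset.mem_subtype.2 (Finset.mem_product.2 ⟨hp, hq⟩)), ha, hb⟩

omit [CompactSpace Z] in
theorem fr_disc {f : ℝ → Z} (hf : Continuous f) {D : Set Z} {S : Set ℝ} {t : ℝ} (h : f t ∈ D)
    (ht : t ∈ closure S) (hS : ∀ s ∈ S, f s ∉ D) : f t ∈ frontier D := by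
  rw [frontier_eq_closure_inter_closure]
  exact ⟨subset_closure h, map_mem_closure hf ht hS⟩

omit [CompactSpace Z] in
theorem pc_disc {f : ℝ → Z} (hf : Continuous f) {s t : ℝ} (h : s ≤ t) :
    IsPathConnected (f '' Icc s t) :=
  ((convex_Icc s t).isPathConnected (nonempty_Icc.2 h)).image hf

theorem trim (hd : 0 < d) (Φ : Frame Z d) {K : Set Z} (hK : IsPathConnected K) {a b : Z}
    (ha : a ∈ K ∩ Φ.D₁) (hb : b ∈ K ∩ Φ.D₂) : ∃ K' ⊆ K, Leaf Φ K' := by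
  obtain ⟨γ, hγ⟩ := hK.joinedIn a ha.1 b hb.1
  have hf := γ.continuous_extend
  have hfK : ∀ t, γ.extend t ∈ K := fun t => by
    obtain ⟨s, hs⟩ : γ.extend t ∈ range γ := γ.extend_range ▸ mem_range_self t
    exact hs ▸ hγ s
  have h0 : γ.extend 0 ∈ Φ.D₁ := γ.extend_zero.symm ▸ ha.2
  have h1 : γ.extend 1 ∈ Φ.D₂ := γ.extend_one.symm ▸ hb.2
  generalize (γ.extend : ℝ → Z) = f at hf hfK h0 h1
  obtain ⟨t₁, ⟨a1, a2⟩, a3⟩ := (isCompact_Icc.inter_right (Φ.cl₁.preimage hf)).exists_isGreatest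
    ⟨0, left_mem_Icc.2 zero_le_one, h0⟩
  obtain ⟨t₂, ⟨b1, b2⟩, b3⟩ := (isCompact_Icc.inter_right (Φ.cl₂.preimage hf)).exists_isLeast
    ⟨1, right_mem_Icc.2 a1.2, h1⟩
  have hlt : t₁ < t₂ := lt_of_le_of_ne b1.1 fun h => by
    have := Φ.far _ a2 _ b2
    rw [h, dist_self] at this
    linarith
  have c1 : ∀ s ∈ Ioc t₁ t₂, f s ∉ Φ.D₁ := fun s hs h =>
    hs.1.not_ge (a3 ⟨⟨a1.1.trans hs.1.le, hs.2.trans b1.2⟩, h⟩)
  have c2 : ∀ s ∈ Ico t₁ t₂, f s ∉ Φ.D₂ := fun s hs h =>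
    hs.2.not_ge (b3 ⟨⟨hs.1, hs.2.le.trans b1.2⟩, h⟩)
  have d1 : f t₁ ∈ Φ.A₁ :=
    Φ.fr₁ (fr_disc hf a2 (by rw [closure_Ioc hlt.ne]; exact left_mem_Icc.2 hlt.le) c1)
  have d2 : f t₂ ∈ Φ.A₂ :=
    Φ.fr₂ (fr_disc hf b2 (by rw [closure_Ico hlt.ne]; exact right_mem_Icc.2 hlt.le) c2)
  refine ⟨f '' Icc t₁ t₂, image_subset_iff.2 fun s _ => hfK s, pc_disc hf hlt.le, ?_,
    ⟨f t₁, ⟨mem_image_of_mem f (left_mem_Icc.2 hlt.le), d1⟩, ?_⟩,
    ⟨f t₂, ⟨mem_image_of_mem f (right_mem_Icc.2 hlt.le), d2⟩, ?_⟩⟩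
  · rintro ⟨s, hs, h⟩
    rcases hs.1.eq_or_lt with e | e
    · exact Φ.nmem (h ▸ e ▸ d1)
    · exact c1 s ⟨e, hs.2⟩ (h ▸ Φ.mem)
  · rintro _ ⟨⟨s, hs, rfl⟩, h⟩
    have e : s < t₂ := lt_of_le_of_ne hs.2 fun e => h (Or.inr (e ▸ b2))
    refine ((pc_disc hf hs.1).joinedIn _ (mem_image_of_mem f (left_mem_Icc.2 hs.1)) _
      (mem_image_of_mem f (right_mem_Icc.2 hs.1))).mono ?_
    rintro _ ⟨u, hu, rfl⟩
    exact ⟨mem_image_of_mem f ⟨hu.1, hu.2.trans hs.2⟩, c2 u ⟨hu.1, hu.2.trans_lt e⟩⟩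
  · rintro _ ⟨⟨s, hs, rfl⟩, h⟩
    have e : t₁ < s := lt_of_le_of_ne hs.1 fun e => h (Or.inl (e ▸ a2))
    refine ((pc_disc hf hs.2).joinedIn _ (mem_image_of_mem f (right_mem_Icc.2 hs.2)) _
      (mem_image_of_mem f (left_mem_Icc.2 hs.2))).mono ?_
    rintro _ ⟨u, hu, rfl⟩
    exact ⟨mem_image_of_mem f ⟨hs.1.trans hu.1, hu.2⟩, c1 u ⟨e.trans_le hu.1, hu.2⟩⟩

end Vale.Agent.P198
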