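import Vale.Agent.P198.A.Defs

/-! P198 A/Esc: planarity.
`k33_sph`: `sph_chart hZ η`, compose the paths with the chart, `k33`. `three`: count weighted triples: those with a conflict weigh at most `6 * δ * e ^ 2 < e ^ 3`
(or greedily by averaging). `esc_small`: `Λ` from `llc1`; choose `σ i`; conflict `i → i'` if `L i'` meets `L i ∪ σ i` (weight `≤ 2 δ`); for three leaves without conflict take
`v = ![a₁ ∈ A₁, a₂ ∈ A₂, p]`, `w j ∈ σ j ∩ L j`, `E 0 j = A₁ ∪ (L j \ D₂)`, `E 1 j = A₂ ∪ (L j \ D₁)`, `E 2 j = closedBall p (Λ s) ∪ σ j`.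
Auxiliary names end in `_esc`. -/

namespace Vale.Agent.P198
open Set Metric Filter Topology
open scoped Pointwise
variable {G Z : Type} [Group G] [MetricSpace Z] [CompactSpace Z] [MulAction G Z]
  [ContinuousConstSMul G Z] {d : ℝ}

theorem k33_sph (hZ : Nonempty (Z ≃ₜ S2)) (η : Z) (v w : Fin 3 → Z) (E : Fin 3 → Fin 3 → Set Z)
    (hη : ∀ i j, η ∉ E i j) (h : ∀ i j, JoinedIn (E i j) (v i) (w j)) :
    ∃ i j i' j', i ≠ i' ∧ j ≠ j' ∧ (E i j ∩ E i' j').Nonempty := by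
  obtain ⟨e, hs, -⟩ := sph_chart hZ η
  choose γ hγ using h
  have hm : ∀ i j t, γ i j t ∈ e.source := fun i j t => by
    rw [hs]
    exact fun h => hη i j (mem_singleton_iff.1 h ▸ hγ i j t)
  obtain ⟨i, j, i', j', hi, hj, s, t, h⟩ := k33
    (fun i j => ⟨fun t => e (γ i j t), e.continuousOn.comp_continuous (γ i j).continuous (hm i j)⟩)
    (fun i j j' => by simp) (fun i i' j => by simp)
  have h' : γ i j s = γ i' j' t := e.injOn (hm i j s) (hm i' j' t) h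
  exact ⟨i, j, i', j', hi, hj, γ i j s, hγ i j s, h' ▸ hγ i' j' t⟩

theorem step_esc {ι : Type} {F : Finset ι} {w : ι → ℝ} (hw : ∀ i, 0 ≤ w i) {p : ι → Prop}
    {R : ι → ι → Prop} {δ c : ℝ} (hδ : 0 ≤ δ) (hR : ∀ i ∈ F, p i → wtA F w (R i) ≤ δ) (hc : 0 ≤ c)
    (h : c + 2 * δ < wtA F w p) :
    ∃ a ∈ F, p a ∧ c < wtA F w (fun i => p i ∧ ¬ R a i ∧ ¬ R i a) := by
  classical
  obtain ⟨a, ha, pa, hin⟩ : ∃ a ∈ F, p a ∧ wtA F w (fun i => p i ∧ R i a) ≤ δ := by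
    by_contra hn
    push Not at hn
    have h0 : ∑ _i ∈ F.filter p, (0 : ℝ) < ∑ i ∈ F.filter p, w i := by
      rw [Finset.sum_const_zero]
      have : wtA F w p = ∑ i ∈ F.filter p, w i := by rw [wt_eq, Finset.sum_filter]
      linarith
    obtain ⟨b, hb, hb0⟩ := Finset.exists_lt_of_sum_lt h0
    have h1 : ∑ a ∈ F.filter p, w a * δ < ∑ a ∈ F.filter p, w a * wtA F w (fun i => p i ∧ R i a) :=
      Finset.sum_lt_sum (fun a ha => mul_le_mul_of_nonneg_left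
        (hn a (Finset.mem_filter.1 ha).1 (Finset.mem_filter.1 ha).2).le (hw a))
        ⟨b, hb, mul_lt_mul_of_pos_left
          (hn b (Finset.mem_filter.1 hb).1 (Finset.mem_filter.1 hb).2) hb0⟩
    have h2 : ∑ a ∈ F.filter p, w a * wtA F w (fun i => p i ∧ R i a) ≤
        ∑ i ∈ F.filter p, w i * wtA F w (R i) := by
      simp only [wt_eq, Finset.sum_filter, Finset.mul_sum]
      have e : ∀ i ∈ F, (if p i then ∑ a ∈ F, w i * (if R i a then w a else 0) else 0) =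
          ∑ a ∈ F, if p i then w i * (if R i a then w a else 0) else 0 := fun i _ => by
        split_ifs <;> simp
      rw [Finset.sum_congr rfl e, Finset.sum_comm]
      refine Finset.sum_le_sum fun a _ => ?_
      have hnn : ∀ i, 0 ≤ if p i then w i * (if R i a then w a else 0) else 0 := fun i => by
        have := hw i
        have := hw a
        split_ifs <;> positivity
      split_ifs
      · refine Finset.sum_le_sum fun i _ => ?_
        by_cases h1 : p i <;> by_cases h2 : R i a <;> simp [h1, h2, mul_comm]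
      · exact Finset.sum_nonneg fun i _ => hnn i
    have h3 : ∑ i ∈ F.filter p, w i * wtA F w (R i) ≤ ∑ a ∈ F.filter p, w a * δ :=
      Finset.sum_le_sum fun i hi => mul_le_mul_of_nonneg_left
        (hR i (Finset.mem_filter.1 hi).1 (Finset.mem_filter.1 hi).2) (hw i)
    linarith
  refine ⟨a, ha, pa, ?_⟩
  have h1 : wtA F w p ≤ wtA F w fun i => (p i ∧ ¬ R a i ∧ ¬ R i a) ∨ (R a i ∨ (p i ∧ R i a)) :=
    wt_mono hw fun i _ hi => by tauto
  have h2 := wt_or_le (F := F) hw (p := fun i => p i ∧ ¬ R a i ∧ ¬ R i a)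
    (p' := fun i => R a i ∨ (p i ∧ R i a))
  have h3 := wt_or_le (F := F) hw (p := R a) (p' := fun i => p i ∧ R i a)
  have h4 := hR a ha pa
  linarith

theorem three {ι : Type} {F : Finset ι} {w : ι → ℝ} (hw : ∀ i, 0 ≤ w i) {p : ι → Prop}
    {R : ι → ι → Prop} {δ : ℝ} (hδ : 0 ≤ δ) (hR : ∀ i ∈ F, p i → wtA F w (R i) ≤ δ)
    (h : 6 * δ < wtA F w p) :
    ∃ a : Fin 3 → ι, (∀ j, a j ∈ F ∧ p (a j)) ∧ ∀ j j', j ≠ j' → ¬ R (a j) (a j') := by
  obtain ⟨a, ha, pa, h1⟩ := step_esc hw hδ hR (c := 2 * δ) (by linarith) (by linarith)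
  obtain ⟨b, hb, pb, h2⟩ := step_esc hw hδ (p := fun i => p i ∧ ¬ R a i ∧ ¬ R i a)
    (fun i hi hp => hR i hi hp.1) (c := 0) le_rfl (by linarith)
  obtain ⟨c, hc, pc⟩ := exists_of_wt_pos h2
  refine ⟨![a, b, c], fun j => ?_, fun j j' hj => ?_⟩
  · fin_cases j
    exacts [⟨ha, pa⟩, ⟨hb, pb.1⟩, ⟨hc, pc.1.1⟩]
  · fin_cases j <;> fin_cases j' <;> first | exact absurd rfl hj | skip
    exacts [pb.2.1, pc.1.2.1, pb.2.2, pc.2.1, pc.1.2.2, pc.2.2]

theorem esc_small (X : GP G Z) (hd : 0 < d) : ∃ Λ ≥ (1 : ℝ), ∀ (Φ : Frame Z d) (P : ℝ)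
    (c : Conf X Φ P) (p : Z) (s δ : ℝ), 0 ≤ δ → Disjoint (closedBall p (Λ * s)) (Φ.D₁ ∪ Φ.D₂) →
      wtA c.F c.w (c.Esc p s (Λ * s) δ) ≤ 12 * δ := by
  obtain ⟨Λ, hΛ, hJ⟩ := X.llc1
  refine ⟨Λ, hΛ, fun Φ P c p s δ hδ hD => ?_⟩
  by_contra hn
  have hσ : ∀ i, ∃ σ : Set Z, c.Esc p s (Λ * s) δ i → IsPathConnected σ ∧
      Disjoint σ (Φ.D₁ ∪ Φ.D₂) ∧ (σ ∩ c.L i).Nonempty ∧ (σ ∩ closedBall p s).Nonempty ∧
        c.mass σ ≤ δ := fun i => by
    by_cases h : c.Esc p s (Λ * s) δ i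
    · obtain ⟨σ, hσ⟩ := h.2.2
      exact ⟨σ, fun _ => hσ⟩
    · exact ⟨∅, fun h' => absurd h' h⟩
  choose σ hσ using hσ
  obtain ⟨a, ha, hR⟩ := three (F := c.F) c.nonneg (p := c.Esc p s (Λ * s) δ)
    (R := fun i i' => (c.L i' ∩ c.L i).Nonempty ∨ (c.L i' ∩ σ i).Nonempty) (δ := 2 * δ)
    (by linarith) (fun i _ hi => by
      have h1 := hi.2.1
      have h2 := (hσ i hi).2.2.2.2
      refine (wt_or_le c.nonneg).trans ?_
      unfold Conf.mass at h1 h2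
      linarith) (by linarith [not_le.1 hn])
  have hS := fun j => hσ _ (ha j).2
  have hL := fun j => c.leaf _ (ha j).1
  choose w hw using fun j => (hS j).2.2.1
  obtain ⟨a₁, ha₁⟩ := Φ.pc₁.nonempty
  obtain ⟨a₂, ha₂⟩ := Φ.pc₂.nonempty
  have far : ∀ x ∈ Φ.D₁, x ∉ Φ.D₂ := fun x h1 h2 => by
    have := Φ.far x h1 x h2
    rw [dist_self] at this
    linarith
  have hwD : ∀ j, w j ∈ c.L (a j) \ (Φ.D₁ ∪ Φ.D₂) := fun j =>
    ⟨(hw j).2, disjoint_left.1 (hS j).2.1 (hw j).1⟩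
  have d2 : ∀ j, ∀ x ∈ closedBall p (Λ * s) ∪ σ (a j), x ∉ Φ.D₁ ∪ Φ.D₂ := fun j x hx =>
    hx.elim (fun h => disjoint_left.1 hD h) fun h => disjoint_left.1 (hS j).2.1 h
  have d3 : ∀ j j', j ≠ j' → ∀ x ∈ closedBall p (Λ * s) ∪ σ (a j), x ∉ c.L (a j') :=
    fun j j' hj x hx h' => hx.elim (fun h => disjoint_left.1 (ha j').2.1 h' h)
      fun h => hR j j' hj (Or.inr ⟨x, h', h⟩)
  have d01 : ∀ j j', j ≠ j' → ∀ x ∈ Φ.A₁ ∪ (c.L (a j) \ Φ.D₂), x ∉ Φ.A₂ ∪ (c.L (a j') \ Φ.D₁) := by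
    rintro j j' hj x (h | h) (h' | h')
    · exact far x (Φ.sub₁ h) (Φ.sub₂ h')
    · exact h'.2 (Φ.sub₁ h)
    · exact h.2 (Φ.sub₂ h')
    · exact hR j j' hj (Or.inl ⟨x, h'.1, h.1⟩)
  have d02 : ∀ j j', j ≠ j' → ∀ x ∈ closedBall p (Λ * s) ∪ σ (a j),
      x ∉ Φ.A₁ ∪ (c.L (a j') \ Φ.D₂) := by
    rintro j j' hj x h (h' | h')
    · exact d2 j x h (Or.inl (Φ.sub₁ h'))
    · exact d3 j j' hj x h h'.1
  have d12 : ∀ j j', j ≠ j' → ∀ x ∈ closedBall p (Λ * s) ∪ σ (a j),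
      x ∉ Φ.A₂ ∪ (c.L (a j') \ Φ.D₁) := by
    rintro j j' hj x h (h' | h')
    · exact d2 j x h (Or.inr (Φ.sub₂ h'))
    · exact d3 j j' hj x h h'.1
  obtain ⟨i, j, i', j', hi, hj, x, h1, h2⟩ := k33_sph X.sph Φ.η ![a₁, a₂, p] w
    ![fun j => Φ.A₁ ∪ (c.L (a j) \ Φ.D₂), fun j => Φ.A₂ ∪ (c.L (a j) \ Φ.D₁),
      fun j => closedBall p (Λ * s) ∪ σ (a j)]
    (fun i j => by
      fin_cases i
      · exact fun h => h.elim Φ.nmem fun h => (hL j).nmem h.1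
      · exact fun h => h.elim (fun h => far _ Φ.mem (Φ.sub₂ h)) fun h => (hL j).nmem h.1
      · exact fun h => d2 j _ h (Or.inl Φ.mem))
    (fun i j => by
      fin_cases i
      · obtain ⟨u, hu, hu'⟩ := (hL j).e₁
        exact ((Φ.pc₁.joinedIn _ ha₁ _ hu.2).mono subset_union_left).trans
          ((hu' _ (hwD j)).mono subset_union_right)
      · obtain ⟨u, hu, hu'⟩ := (hL j).e₂
        exact ((Φ.pc₂.joinedIn _ ha₂ _ hu.2).mono subset_union_left).trans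
          ((hu' _ (hwD j)).mono subset_union_right)
      · obtain ⟨u, hu, hu'⟩ := (hS j).2.2.2.1
        have h3 : Λ * dist p u ≤ Λ * s :=
          mul_le_mul_of_nonneg_left (mem_closedBall'.1 hu') (by linarith)
        exact ((hJ p u).mono ((closedBall_subset_closedBall h3).trans subset_union_left)).trans
          (((hS j).1.joinedIn _ hu _ (hw j).1).mono subset_union_right))
  fin_cases i <;> fin_cases i' <;> first | exact absurd rfl hi | skip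
  exacts [d01 j j' hj x h1 h2, d02 j' j hj.symm x h2 h1, d01 j' j hj.symm x h2 h1,
    d12 j' j hj.symm x h2 h1, d02 j j' hj x h1 h2, d12 j j' hj x h1 h2]

end Vale.Agent.P198
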