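import Mathlib

/-! P198 A/Exp: the exponent improvement.
`Q t := ∃ r > 0, ∀ ε > 0, ∀ J₀, ∃ J ≥ J₀, S r J (exp (t J)) (exp (-ε J))`. `t₀ = log a / 2` satisfies `Q`; `Q t` forces `t ≤ D' = log D` by `bd`.
For `t ≥ t₀`, `Q t → Q (t + c)` with `u₀ = t₀ / (2 D')`, `c = min (t₀ u₀ / 2) (t₀ / 8)`: apply `step` with small `ε` and large `J`
(`A (J + 1) ≤ exp (ε J)`); `bd` for the new level gives `(2 t - 3 ε) J ≤ D' j`, so `j ≥ t₀ J / D'` is large and the new weight is at least `exp (-ε' j)`.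
If `j ≤ 2 J (1 - u₀)` use the factor `1`: `(t + c) j ≤ (2 t - t₀ u₀) J`. Otherwise `J - j / 2 ≤ u₀ J + 1` and the second factor gives the exponent
`(3 t - t₀ / 2 - 4 ε) J - D' ≥ 2 (t + c) J`. Induction gives `Q (t₀ + n c)` for all `n`. Auxiliary names end in `_exp`. -/

namespace Vale.Agent.P198

/-- The property that is improved. -/
def Q_exp (S : ℝ → ℕ → ℝ → ℝ → Prop) (t : ℝ) : Prop :=
  ∃ r > 0, ∀ ε > 0, ∀ J₀ : ℕ, ∃ J ≥ J₀, S r J (Real.exp (t * J)) (Real.exp (-ε * J))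

theorem big_exp {A ε J : ℝ} (hε : 0 < ε) (hA : 1 ≤ A) (hJ : 4 * A / ε ^ 2 ≤ J) (h1 : 1 ≤ J) :
    A * (J + 1) ≤ Real.exp (ε * J) := by
  have h2 := Real.quadratic_le_exp_of_nonneg (mul_nonneg hε.le (zero_le_one.trans h1))
  rw [div_le_iff₀ (by positivity)] at hJ
  have h3 := mul_le_mul_of_nonneg_left hJ (zero_le_one.trans h1)
  have h4 : 0 ≤ ε * J := by positivity
  nlinarith

theorem pow_exp {D : ℕ} (hD : 2 ≤ D) (n : ℕ) : (D : ℝ) ^ n = Real.exp (Real.log D * n) := by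
  have h : (0 : ℝ) < D := by exact_mod_cast (by omega : 0 < D)
  rw [mul_comm, Real.exp_nat_mul, Real.exp_log h]

theorem fac_exp {t ε B J : ℝ} (hB0 : 0 < B) (hB : B ≤ Real.exp (ε * J)) :
    Real.exp ((2 * t - 3 * ε) * J) ≤ Real.exp (-ε * J) ^ 2 * Real.exp (t * J) ^ 2 / B := by
  rw [le_div_iff₀ hB0]
  refine (mul_le_mul_of_nonneg_left hB (Real.exp_pos _).le).trans (le_of_eq ?_)
  rw [sq, sq, ← Real.exp_add, ← Real.exp_add, ← Real.exp_add, ← Real.exp_add]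
  congr 1
  ring

theorem gain_exp {t t₀ u L c ε B : ℝ} {J j : ℕ} (ht₀ : 0 < t₀) (ht : t₀ ≤ t) (hL : 0 < L)
    (hu : L * u = t₀ / 2) (hc0 : 0 < c) (hc1 : 2 * c ≤ t₀ * u) (hc2 : 8 * c ≤ t₀)
    (hε1 : 3 * ε ≤ t₀ * u) (hε2 : 32 * ε ≤ t₀) (hJ : 8 * L ≤ t₀ * J) (hj : j ≤ 2 * J)
    (hB0 : 0 < B) (hB : B ≤ Real.exp (ε * J)) :
    Real.exp ((t + c) * j) ≤ Real.exp (-ε * J) ^ 2 * Real.exp (t * J) ^ 2 / B *
      max 1 (Real.exp (t * J) / (B * Real.exp (L * ((J - j / 2 : ℕ) : ℝ)))) := by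
  have h1 := fac_exp (t := t) hB0 hB
  have hJ0 : (0 : ℝ) ≤ J := Nat.cast_nonneg J
  have htc : 0 ≤ t + c := by linarith
  have hu0 : 0 < u := by
    by_contra h
    have := mul_nonpos_of_nonneg_of_nonpos hL.le (not_lt.1 h)
    linarith
  by_cases h : (j : ℝ) ≤ 2 * J * (1 - u)
  · refine le_trans ?_ (mul_le_mul h1 (le_max_left _ _) zero_le_one (by positivity))
    rw [mul_one]
    refine Real.exp_le_exp.2 ((mul_le_mul_of_nonneg_left h htc).trans ?_)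
    have h2 : (t + c) * (2 * (1 - u)) ≤ 2 * t - 3 * ε := by
      nlinarith [mul_le_mul_of_nonneg_right ht hu0.le, mul_pos hc0 hu0]
    have h3 := mul_le_mul_of_nonneg_right h2 hJ0
    linarith
  · have hm : ((J - j / 2 : ℕ) : ℝ) ≤ u * J + 1 := by
      have h2 : 2 * (J - j / 2) + j ≤ 2 * J + 1 := by omega
      have h3 : (2 : ℝ) * ((J - j / 2 : ℕ) : ℝ) + j ≤ 2 * J + 1 := by exact_mod_cast h2
      linarith [not_le.1 h]
    have h4 : Real.exp ((t - ε - t₀ / 2) * J - L) ≤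
        Real.exp (t * J) / (B * Real.exp (L * ((J - j / 2 : ℕ) : ℝ))) := by
      rw [le_div_iff₀ (by positivity)]
      refine (mul_le_mul_of_nonneg_left (mul_le_mul_of_nonneg_right hB (Real.exp_pos _).le)
        (Real.exp_pos _).le).trans ?_
      rw [← Real.exp_add, ← Real.exp_add]
      refine Real.exp_le_exp.2 ?_
      have h5 := mul_le_mul_of_nonneg_left hm hL.le
      have h6 : L * (u * J + 1) = t₀ / 2 * J + L := by rw [← hu]; ring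
      linarith
    refine le_trans ?_ (mul_le_mul h1 (h4.trans (le_max_right _ _)) (Real.exp_pos _).le
      (by positivity))
    rw [← Real.exp_add]
    have hj' : (j : ℝ) ≤ 2 * J := by exact_mod_cast hj
    refine Real.exp_le_exp.2 ((mul_le_mul_of_nonneg_left hj' htc).trans ?_)
    have h7 : t₀ / 8 ≤ t - t₀ / 2 - 4 * ε - 2 * c := by linarith
    have h8 := mul_le_mul_of_nonneg_right h7 hJ0
    linarith

theorem step_exp {S : ℝ → ℕ → ℝ → ℝ → Prop} {D : ℕ} (hD : 2 ≤ D)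
    (mono : ∀ r J x η x' η', S r J x η → x' ≤ x → η' ≤ η → S r J x' η')
    (bd : ∀ r J x η, S r J x η → 0 < η → x ≤ (D : ℝ) ^ J)
    (step : ∀ r > 0, ∃ r' > 0, ∃ A ≥ (1 : ℝ), ∀ (J : ℕ) (x η : ℝ), A ≤ J → 0 < x → 0 < η →
      A ≤ η ^ 2 * x ^ 2 → S r J x η → ∃ j ≤ 2 * J, S r' j
        (η ^ 2 * x ^ 2 / (A * (J + 1)) * max 1 (x / (A * (J + 1) * (D : ℝ) ^ (J - j / 2))))
        (η / (A * (J + 1))))
    {t t₀ u c : ℝ} (ht₀ : 0 < t₀) (ht : t₀ ≤ t) (hL : 0 < Real.log D) (hu0 : 0 < u)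
    (hu : Real.log D * u = t₀ / 2) (hc0 : 0 < c) (hc1 : 2 * c ≤ t₀ * u) (hc2 : 8 * c ≤ t₀)
    (hQ : Q_exp S t) : Q_exp S (t + c) := by
  obtain ⟨r, hr, hS⟩ := hQ
  obtain ⟨r', hr', A, hA, hst⟩ := step r hr
  refine ⟨r', hr', fun ε' hε' J₀ => ?_⟩
  obtain ⟨ε, hε, e1, e2, e3⟩ : ∃ ε > 0, ε ≤ ε' * u ∧ 3 * ε ≤ t₀ * u ∧ 32 * ε ≤ t₀ := by
    refine ⟨min (ε' * u) (min (t₀ * u / 3) (t₀ / 32)), by positivity, min_le_left _ _, ?_, ?_⟩
    · linarith [min_le_right (ε' * u) (min (t₀ * u / 3) (t₀ / 32)),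
        min_le_left (t₀ * u / 3) (t₀ / 32)]
    · linarith [min_le_right (ε' * u) (min (t₀ * u / 3) (t₀ / 32)),
        min_le_right (t₀ * u / 3) (t₀ / 32)]
  obtain ⟨J₁, hJ₁⟩ := exists_nat_ge
    (max (max A (4 * A / ε ^ 2)) (max (8 * Real.log D / t₀) (J₀ / (2 * u))))
  obtain ⟨J, hJ, hSJ⟩ := hS ε hε J₁
  have hJ' := hJ₁.trans (Nat.cast_le.2 hJ : (J₁ : ℝ) ≤ J)
  simp only [max_le_iff] at hJ'
  obtain ⟨⟨b1, b2⟩, b3, b4⟩ := hJ'
  rw [div_le_iff₀ ht₀] at b3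
  rw [div_le_iff₀ (by positivity)] at b4
  have hJ0 : (0 : ℝ) ≤ J := Nat.cast_nonneg J
  have hB := big_exp hε hA b2 (hA.trans b1)
  have hB0 : 0 < A * ((J : ℝ) + 1) := by positivity
  have h1 := fac_exp (t := t) hB0 hB
  have h2 : 1 ≤ Real.exp ((2 * t - 3 * ε) * J) := Real.one_le_exp (mul_nonneg (by linarith) hJ0)
  have h3 : A ≤ Real.exp (-ε * J) ^ 2 * Real.exp (t * J) ^ 2 := by
    have h4 := (le_div_iff₀ hB0).1 (h2.trans h1)
    nlinarith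
  obtain ⟨j, hj, hSj⟩ := hst J _ _ b1 (Real.exp_pos _) (Real.exp_pos _) h3 hSJ
  have h5 := bd _ _ _ _ hSj (by positivity)
  have h6 : Real.exp ((2 * t - 3 * ε) * J) ≤ Real.exp (Real.log D * j) := by
    rw [← pow_exp hD]
    refine le_trans ?_ h5
    exact (mul_one _).symm.le.trans (mul_le_mul h1 (le_max_left _ _) zero_le_one (by positivity))
  have h7 : 2 * u * J ≤ j := by
    have h8 := Real.exp_le_exp.1 h6
    have h9 : t₀ * J ≤ (2 * t - 3 * ε) * J := mul_le_mul_of_nonneg_right (by linarith) hJ0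
    refine le_of_mul_le_mul_left ?_ hL
    have h10 : Real.log D * (2 * u * J) = t₀ * J := by
      rw [show Real.log D * (2 * u * J) = 2 * (Real.log D * u) * J by ring, hu]
      ring
    linarith
  refine ⟨j, ?_, mono _ _ _ _ _ _ hSj ?_ ?_⟩
  · have : (J₀ : ℝ) ≤ j := by linarith
    exact_mod_cast this
  · rw [pow_exp hD]
    exact gain_exp ht₀ ht hL hu hc0 hc1 hc2 e2 e3 (by linarith) hj hB0 hB
  · rw [le_div_iff₀ hB0]
    refine (mul_le_mul_of_nonneg_left hB (Real.exp_pos _).le).trans ?_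
    rw [← Real.exp_add]
    refine Real.exp_le_exp.2 ?_
    have h8 := mul_le_mul_of_nonneg_left h7 hε'.le
    have h9 := mul_le_mul_of_nonneg_right e1 hJ0
    linarith

theorem exp_false (S : ℝ → ℕ → ℝ → ℝ → Prop) (D : ℕ) (hD : 2 ≤ D)
    (mono : ∀ r J x η x' η', S r J x η → x' ≤ x → η' ≤ η → S r J x' η')
    (bd : ∀ r J x η, S r J x η → 0 < η → x ≤ (D : ℝ) ^ J)
    (init : ∃ r > 0, ∃ c > 0, ∃ a > (1 : ℝ), ∀ J, S r J (c * a ^ J) 1)
    (step : ∀ r > 0, ∃ r' > 0, ∃ A ≥ (1 : ℝ), ∀ (J : ℕ) (x η : ℝ), A ≤ J → 0 < x → 0 < η →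
      A ≤ η ^ 2 * x ^ 2 → S r J x η → ∃ j ≤ 2 * J, S r' j
        (η ^ 2 * x ^ 2 / (A * (J + 1)) * max 1 (x / (A * (J + 1) * (D : ℝ) ^ (J - j / 2))))
        (η / (A * (J + 1)))) : False := by
  obtain ⟨r, hr, c₀, hc₀, a, ha, hS⟩ := init
  have hL : 0 < Real.log D := Real.log_pos (by exact_mod_cast (by omega : 1 < D))
  obtain ⟨t₀, ht₀, ea⟩ : ∃ t₀ > 0, a = Real.exp (2 * t₀) :=
    ⟨Real.log a / 2, half_pos (Real.log_pos ha), by
      rw [mul_div_cancel₀ _ two_ne_zero, Real.exp_log (zero_lt_one.trans ha)]⟩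
  have h0 : Q_exp S t₀ := by
    refine ⟨r, hr, fun ε hε J₀ => ?_⟩
    obtain ⟨J₁, hJ₁⟩ := exists_nat_ge (1 / (c₀ * t₀))
    refine ⟨max J₀ J₁, le_max_left _ _, mono _ _ _ _ _ _ (hS _) ?_ ?_⟩
    · have h1 := hJ₁.trans (Nat.cast_le.2 (le_max_right J₀ J₁) : (J₁ : ℝ) ≤ (max J₀ J₁ : ℕ))
      generalize max J₀ J₁ = J at h1
      rw [div_le_iff₀ (by positivity)] at h1
      have h2 : a ^ J = Real.exp (t₀ * J) * Real.exp (t₀ * J) := by
        rw [ea, ← Real.exp_nat_mul, ← Real.exp_add]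
        congr 1
        ring
      have h3 : 1 ≤ c₀ * Real.exp (t₀ * J) := by
        have h4 := mul_le_mul_of_nonneg_left (Real.add_one_le_exp (t₀ * J)) hc₀.le
        linarith
      rw [h2, ← mul_assoc]
      exact le_mul_of_one_le_left (Real.exp_pos _).le h3
    · exact Real.exp_le_one_iff.2 (mul_nonpos_of_nonpos_of_nonneg (by linarith) (Nat.cast_nonneg _))
  obtain ⟨u, hu0, hu⟩ : ∃ u > 0, Real.log D * u = t₀ / 2 :=
    ⟨t₀ / 2 / Real.log D, by positivity, mul_div_cancel₀ _ hL.ne'⟩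
  obtain ⟨c, hc0, hc1, hc2⟩ : ∃ c > 0, 2 * c ≤ t₀ * u ∧ 8 * c ≤ t₀ :=
    ⟨min (t₀ * u / 2) (t₀ / 8), by positivity, by linarith [min_le_left (t₀ * u / 2) (t₀ / 8)],
      by linarith [min_le_right (t₀ * u / 2) (t₀ / 8)]⟩
  have hn : ∀ n : ℕ, Q_exp S (t₀ + n * c) := fun n => by
    induction n with
    | zero => simpa using h0
    | succ n ih =>
      have h1 : t₀ ≤ t₀ + n * c := le_add_of_nonneg_right (by positivity)
      have h2 := step_exp hD mono bd step ht₀ h1 hL hu0 hu hc0 hc1 hc2 ih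
      rwa [add_assoc, ← add_one_mul, ← Nat.cast_succ] at h2
  obtain ⟨n, hn'⟩ := exists_nat_ge (Real.log D / c)
  rw [div_le_iff₀ hc0] at hn'
  obtain ⟨r', _, hS'⟩ := hn n
  obtain ⟨J, hJ, hSJ⟩ := hS' 1 one_pos 1
  have h1 := bd _ _ _ _ hSJ (Real.exp_pos _)
  rw [pow_exp hD] at h1
  have h2 : (0 : ℝ) < J := by exact_mod_cast hJ
  have h3 := le_of_mul_le_mul_right (Real.exp_le_exp.1 h1) h2
  linarith

end Vale.Agent.P198
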