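import Vale.Agent.P198.A.Defs

/-! P198 A/High: from many out-neighbours to many shadows.
For `g ∈ H` at least `T / 2` elements of `Out` have norm `≥ j₀` (`card (B j₀) ≤ D ^ j₀`); pigeonhole on the norm `j ≤ 2 J` (for each `g`, then over `g`): a level `j ≥ j₀` and `H' ⊆ H`,
`card H' ≥ s / (2 J + 1)`, each `g ∈ H'` having `≥ T' = T / (2 (2 J + 1))` neighbours `y` of norm `j`. `Y'` = their union; `card Y' ≥ T'`, and double counting with the cone bound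
(`gp ν g y = j / 2` since `ν g = J = ν (y⁻¹ g)`) gives `card H' * T' ≤ card Y' * N D ^ (J - j / 2)`. Send `y ∈ Y'` to a `net` point of its witness `ξ`: it lies in `Y (r / 2) j` since
`dist ξ ξ₀ ≤ κ₃ q ^ j + C q ^ (j / 2) + C q ^ J ≤ r / 2` (`m3`, `j / 2 ≤ J`), fibres `≤ count (κ₃ + C)`. Auxiliary names end in `_high`. -/

namespace Vale.Agent.P198
open Set Metric Filter Topology
open scoped Pointwise
variable {G Z : Type} [Group G] [MetricSpace Z] [CompactSpace Z] [MulAction G Z]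
  [ContinuousConstSMul G Z] {d : ℝ}

theorem comb_high {α β : Type} (H : Finset α) (O : α → Finset β) (ν : β → ℕ) {n : ℕ}
    (hn : 0 < n) {T : ℝ} (hT : ∀ g ∈ H, T ≤ (O g).card) (hν : ∀ g ∈ H, ∀ y ∈ O g, ν y < n) :
    ∃ j < n, ∃ Y : Finset β, (∀ y ∈ Y, ν y = j ∧ ∃ g ∈ H, y ∈ O g) ∧ ∃ p : ℝ,
      H.card * T ≤ n * p ∧ p ≤ H.card * Y.card ∧ ∀ B : ℕ,
        (∀ y, ν y = j → ∀ s ⊆ H, (∀ g ∈ s, y ∈ O g) → s.card ≤ B) → p ≤ Y.card * B := by
  classical
  have h1 : ∀ g ∈ H, (O g).card = ∑ j ∈ Finset.range n, ((O g).filter fun y => ν y = j).card :=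
    fun g hg => Finset.card_eq_sum_card_fiberwise fun y hy =>
      Finset.mem_coe.2 (Finset.mem_range.2 (hν g hg y (Finset.mem_coe.1 hy)))
  have h2 : (H.card : ℝ) * T ≤ ∑ j ∈ Finset.range n,
      ∑ g ∈ H, (((O g).filter fun y => ν y = j).card : ℝ) := by
    rw [Finset.sum_comm, ← nsmul_eq_mul, ← Finset.sum_const]
    refine Finset.sum_le_sum fun g hg => (hT g hg).trans ?_
    rw [h1 g hg, Nat.cast_sum]
  have h3 : ∑ _j ∈ Finset.range n, (H.card : ℝ) * T ≤ ∑ j ∈ Finset.range n,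
      (n : ℝ) * ∑ g ∈ H, (((O g).filter fun y => ν y = j).card : ℝ) := by
    rw [Finset.sum_const, Finset.card_range, nsmul_eq_mul, ← Finset.mul_sum]
    exact mul_le_mul_of_nonneg_left h2 (Nat.cast_nonneg n)
  obtain ⟨j, hj, h4⟩ := Finset.exists_le_of_sum_le (Finset.nonempty_range_iff.2 hn.ne') h3
  obtain ⟨Y, hY⟩ : ∃ Y, Y = H.biUnion fun g => (O g).filter fun y => ν y = j := ⟨_, rfl⟩
  have hmem : ∀ y, y ∈ Y ↔ ν y = j ∧ ∃ g ∈ H, y ∈ O g := by
    intro y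
    rw [hY, Finset.mem_biUnion]
    constructor
    · rintro ⟨g, hg, hy⟩
      exact ⟨(Finset.mem_filter.1 hy).2, g, hg, (Finset.mem_filter.1 hy).1⟩
    · rintro ⟨e, g, hg, hy⟩
      exact ⟨g, hg, Finset.mem_filter.2 ⟨hy, e⟩⟩
  have h5 : ∀ g ∈ H, ((O g).filter fun y => ν y = j) = Y.filter fun y => y ∈ O g := by
    intro g hg
    ext y
    simp only [Finset.mem_filter, hmem]
    exact ⟨fun h => ⟨⟨h.2, g, hg, h.1⟩, h.1⟩, fun h => ⟨h.2, h.1.1⟩⟩
  refine ⟨j, Finset.mem_range.1 hj, Y, fun y hy => (hmem y).1 hy, _, h4, ?_, fun B hB => ?_⟩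
  · rw [← nsmul_eq_mul, ← Finset.sum_const]
    refine Finset.sum_le_sum fun g hg => ?_
    rw [h5 g hg]
    exact Nat.cast_le.2 (Finset.card_filter_le _ _)
  · have h6 : ∑ g ∈ H, ((O g).filter fun y => ν y = j).card ≤ Y.card * B := by
      rw [Finset.sum_congr rfl fun g hg => congrArg Finset.card (h5 g hg)]
      simp only [Finset.card_filter]
      rw [Finset.sum_comm, ← smul_eq_mul, ← Finset.sum_const]
      refine Finset.sum_le_sum fun y hy => ?_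
      rw [← Finset.card_filter]
      exact hB y ((hmem y).1 hy).1 _ (Finset.filter_subset _ _) fun g hg =>
        (Finset.mem_filter.1 hg).2
    exact_mod_cast h6

theorem arith_high {A T s h p y w M N E J : ℝ} (hA1 : 1 ≤ A) (hA : 4 * (M + 1) * (N + 1) ≤ A)
    (hM : 0 ≤ M) (hN : 0 ≤ N) (hJ : 0 ≤ J) (hE : 0 < E) (hT : 0 ≤ T) (hs : 0 < s) (hh : s ≤ h)
    (hw : 0 ≤ w) (h1 : h * (T / 2) ≤ (2 * J + 1) * p) (h2 : p ≤ h * y)
    (h3 : p ≤ y * (N * E)) (h4 : y ≤ w * M) :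
    T / (A * (J + 1)) * max 1 (s / (A * (J + 1) * E)) ≤ w := by
  have hh0 : 0 < h := hs.trans_le hh
  have hAJ : 1 ≤ A * (J + 1) := one_le_mul_of_one_le_of_one_le hA1 (by linarith)
  have hMN : 0 ≤ M * N := mul_nonneg hM hN
  rw [mul_max_of_nonneg _ _ (by positivity), mul_one]
  refine max_le ?_ ?_
  · rw [div_le_iff₀ (by positivity)]
    have a1 : (2 * J + 1) * p ≤ (2 * J + 1) * (h * (w * M)) :=
      mul_le_mul_of_nonneg_left (h2.trans (mul_le_mul_of_nonneg_left h4 hh0.le)) (by linarith)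
    have a2 : T / 2 ≤ (2 * J + 1) * (w * M) := by
      refine le_of_mul_le_mul_left (a := h) ?_ hh0
      have e : h * ((2 * J + 1) * (w * M)) = (2 * J + 1) * (h * (w * M)) := by ring
      linarith
    have a3 : 4 * M ≤ A := by nlinarith
    have a4 : w * (J + 1) * (4 * M) ≤ w * (J + 1) * A :=
      mul_le_mul_of_nonneg_left a3 (by positivity)
    have a5 : 0 ≤ w * M := by positivity
    nlinarith
  · rw [div_mul_div_comm, div_le_iff₀ (by positivity)]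
    have a1 : y * (N * E) ≤ w * M * (N * E) := mul_le_mul_of_nonneg_right h4 (by positivity)
    have a2 : (2 * J + 1) * p ≤ (2 * J + 1) * (w * M * (N * E)) :=
      mul_le_mul_of_nonneg_left (h3.trans a1) (by linarith)
    have a3 : s * (T / 2) ≤ h * (T / 2) := mul_le_mul_of_nonneg_right hh (by positivity)
    have a4 : 4 * (M * N) ≤ A := by nlinarith
    have a5 : w * (J + 1) * E * (4 * (M * N)) ≤ w * (J + 1) * E * A :=
      mul_le_mul_of_nonneg_left a4 (by positivity)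
    have a6 : w * (J + 1) * E * A * 1 ≤ w * (J + 1) * E * A * (A * (J + 1)) :=
      mul_le_mul_of_nonneg_left hAJ (by positivity)
    have a7 : 0 ≤ w * M * (N * E) := by positivity
    have e1 : w * (A * (J + 1) * (A * (J + 1) * E)) = w * (J + 1) * E * A * (A * (J + 1)) := by ring
    have e2 : w * (J + 1) * E * (4 * (M * N)) =
        2 * ((2 * J + 1) * (w * M * (N * E))) + 2 * (w * M * (N * E)) := by ring
    have e3 : T * s = 2 * (s * (T / 2)) := by ring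
    linarith

theorem geo_high (X : GP G Z) (Φ : Frame Z d) {r κ₃ : ℝ} (hκ : 0 < κ₃) {n j₀ J : ℕ}
    (hn : (κ₃ + 2 * X.C) * X.q ^ n ≤ r / 2) (hj : 2 * n ≤ j₀) {K : Set Z} {g y : G}
    (hg : g ∈ X.Y Φ r J K) (hy : y ∈ X.Out κ₃ j₀ J K g) (hy' : j₀ ≤ X.ν y) :
    ∃ x ∈ X.Y Φ (r / 2) (X.ν y) K, dist (X.π y) (X.π x) ≤ (κ₃ + X.C) * X.q ^ X.ν y := by
  classical
  have hC := X.C_pos
  unfold GP.Y at hg
  unfold GP.Out at hy
  rw [Finset.mem_filter, X.mem_S] at hg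
  rw [Finset.mem_filter, X.mem_B] at hy
  obtain ⟨hgJ, ξ₀, -, h1, h2⟩ := hg
  obtain ⟨hyJ, h3, h4⟩ := hy
  obtain ⟨ξ, hξ, h5⟩ := h4.resolve_left (not_lt.2 hy')
  have h6 : dist (X.π y) (X.π g) ≤ X.C * X.q ^ n := by
    refine gComb_dist X y g ?_
    unfold gp
    omega
  have h7 : κ₃ * X.q ^ X.ν y ≤ κ₃ * X.q ^ n :=
    mul_le_mul_of_nonneg_left (gComb_pow X (by omega)) hκ.le
  have h8 : X.C * X.q ^ J ≤ X.C * X.q ^ n :=
    mul_le_mul_of_nonneg_left (gComb_pow X (by omega)) hC.le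
  have h9 : dist ξ₀ ξ ≤ r / 2 := by
    have a1 := dist_triangle ξ₀ (X.π g) ξ
    have a2 := dist_triangle (X.π g) (X.π y) ξ
    rw [dist_comm (X.π g) (X.π y), dist_comm (X.π y) ξ] at a2
    linarith
  obtain ⟨x, hx, h10⟩ := X.net (X.ν y) ξ
  refine ⟨x, ?_, ?_⟩
  · unfold GP.Y
    rw [Finset.mem_filter, X.mem_S]
    refine ⟨hx, ξ, hξ, h10, fun ω hω => ?_⟩
    have a1 := dist_triangle ξ₀ ξ ω
    linarith [h2 ω hω]
  · have a1 := dist_triangle (X.π y) ξ (X.π x)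
    rw [dist_comm (X.π y) ξ] at a1
    linarith

theorem high (X : GP G Z) (Φ : Frame Z d) {N D : ℕ} (hD : X.Cone N D) {r κ₃ : ℝ} (hr : 0 < r)
    (hκ : 0 < κ₃) : ∃ j₁ : ℕ, ∀ j₀ ≥ j₁, ∃ A ≥ (1 : ℝ), ∀ (K : Set Z) (J : ℕ) (T s : ℝ)
      (H : Finset G), A ≤ T → 0 < s → H ⊆ X.Y Φ r J K → s ≤ H.card →
        (∀ g ∈ H, T ≤ (X.Out κ₃ j₀ J K g).card) → ∃ j ≤ 2 * J,
          T / (A * (J + 1)) * max 1 (s / (A * (J + 1) * (D : ℝ) ^ (J - j / 2))) ≤
            (X.Y Φ (r / 2) j K).card := by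
  classical
  have hC := X.C_pos
  obtain ⟨n, hn⟩ := exists_pow_lt_of_lt_one (show 0 < r / 2 / (κ₃ + 2 * X.C) by positivity) X.q_lt
  rw [lt_div_iff₀' (by positivity)] at hn
  obtain ⟨M, hM⟩ := X.count (κ₃ + X.C)
  have hD0 : (0 : ℝ) < D := by
    have := hD.1
    exact_mod_cast (show 0 < D by omega)
  refine ⟨2 * n, fun j₀ hj₀ => ?_⟩
  have hMN : (1 : ℝ) ≤ 4 * ((M : ℝ) + 1) * ((N : ℝ) + 1) := by
    have a1 : (0 : ℝ) ≤ M := Nat.cast_nonneg M
    have a2 : (0 : ℝ) ≤ N := Nat.cast_nonneg N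
    nlinarith [mul_nonneg a1 a2]
  have hDj : (0 : ℝ) < (D : ℝ) ^ j₀ := by positivity
  refine ⟨4 * ((M : ℝ) + 1) * ((N : ℝ) + 1) + 2 * (D : ℝ) ^ j₀, by linarith,
    fun K J T s H hT hs hH hsH hOut => ?_⟩
  have hO : ∀ g ∈ H, T / 2 ≤ (((X.Out κ₃ j₀ J K g).filter fun y => j₀ ≤ X.ν y).card : ℝ) := by
    intro g hg
    have a1 : X.Out κ₃ j₀ J K g ⊆
        ((X.Out κ₃ j₀ J K g).filter fun y => j₀ ≤ X.ν y) ∪ X.B j₀ := by
      intro y hy
      rw [Finset.mem_union, Finset.mem_filter, X.mem_B]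
      rcases le_total j₀ (X.ν y) with h | h
      · exact Or.inl ⟨hy, h⟩
      · exact Or.inr h
    have a2 := ((Finset.card_le_card a1).trans (Finset.card_union_le _ _)).trans
      (Nat.add_le_add_left (hD.2.1 j₀) _)
    have a3 : ((X.Out κ₃ j₀ J K g).card : ℝ) ≤
        (((X.Out κ₃ j₀ J K g).filter fun y => j₀ ≤ X.ν y).card : ℝ) + (D : ℝ) ^ j₀ := by
      exact_mod_cast a2
    linarith [hOut g hg]
  have hν : ∀ g ∈ H, ∀ y ∈ (X.Out κ₃ j₀ J K g).filter fun y => j₀ ≤ X.ν y,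
      X.ν y < 2 * J + 1 := by
    intro g _ y hy
    have a1 := (Finset.mem_filter.1 hy).1
    unfold GP.Out at a1
    rw [Finset.mem_filter, X.mem_B] at a1
    omega
  obtain ⟨j, hj, Y, hY, p, p1, p2, p3⟩ := comb_high H _ X.ν (Nat.succ_pos (2 * J)) hO hν
  have p4 := p3 (N * D ^ (J - j / 2)) fun y hy s' hs' hsy => by
    refine le_trans (Finset.card_le_card fun g hg => ?_) (hD.2.2 y J (j / 2))
    have a1 := hH (hs' hg)
    have a2 := (Finset.mem_filter.1 (hsy g hg)).1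
    unfold GP.Y at a1
    unfold GP.Out at a2
    rw [Finset.mem_filter] at a1 a2
    refine Finset.mem_filter.2 ⟨a1.1, ?_⟩
    have a3 : X.ν (g⁻¹ * y) = J := by
      rw [← a2.2.1, ← X.wn.inv (y⁻¹ * g), mul_inv_rev, inv_inv]
    have a4 := X.mem_S.1 a1.1
    unfold gp
    omega
  have p5 : Y.card ≤ (X.Y Φ (r / 2) j K).card * M := by
    refine le_trans (Finset.card_le_card fun y hy => ?_)
      (Finset.card_biUnion_le_card_mul (X.Y Φ (r / 2) j K) _ M fun x _ => hM j (X.π x))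
    obtain ⟨e, g, hg, hyg⟩ := hY y hy
    rw [Finset.mem_filter] at hyg
    obtain ⟨x, hx, hd⟩ := geo_high X Φ hκ hn.le hj₀ (hH hg) hyg.1 hyg.2
    rw [e] at hx hd
    exact Finset.mem_biUnion.2 ⟨x, hx, Finset.mem_filter.2 ⟨X.mem_S.2 e, hd⟩⟩
  refine ⟨j, by omega, arith_high (M := M) (N := N) (p := p) (y := Y.card) (by linarith)
    (by linarith) (Nat.cast_nonneg M) (Nat.cast_nonneg N) (Nat.cast_nonneg J) (by positivity)
    (by linarith) hs hsH (Nat.cast_nonneg _) ?_ p2 ?_ ?_⟩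
  · exact_mod_cast p1
  · exact_mod_cast p4
  · exact_mod_cast p5

end Vale.Agent.P198
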