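import Vale.Agent.P198.A.Defs

/-! P198 A/Init: the easy properties of `SS`.
`ss_init`: `r = d / 8`; on a leaf `infDist · D₁` takes all values in `[0, d / 2]` (IVT); points with values `d / 8 + a * (3 C q ^ J) ≤ d / 4` are `r`-far from both discs and
have distinct `net` points, so the count is at least `d / (24 C) * q⁻¹ ^ J`. Auxiliary names end in `_init`. -/

namespace Vale.Agent.P198
open Set Metric Filter Topology
open scoped Pointwise
variable {G Z : Type} [Group G] [MetricSpace Z] [CompactSpace Z] [MulAction G Z]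
  [ContinuousConstSMul G Z] {d : ℝ}
variable {X : GP G Z} {Φ : Frame Z d} {P : ℝ}

omit [CompactSpace Z] [ContinuousConstSMul G Z] in

theorem SS.mono {r : ℝ} {J : ℕ} {x η x' η' : ℝ} (h : SS X Φ P r J x η) (hx : x' ≤ x)
    (hη : η' ≤ η) : SS X Φ P r J x' η' := by
  intro ε hε
  obtain ⟨c, h1, h2, h3⟩ := h ε hε
  exact ⟨c, h1, h2, hη.trans (h3.trans (wt_mono c.nonneg fun i _ hi => hx.trans hi))⟩

omit [CompactSpace Z] [ContinuousConstSMul G Z] in

theorem SS.bd {r : ℝ} {J : ℕ} {x η : ℝ} {N D : ℕ} (hD : X.Cone N D) (h : SS X Φ P r J x η)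
    (hη : 0 < η) : x ≤ (D : ℝ) ^ J := by
  classical
  obtain ⟨c, -, -, h3⟩ := h 1 one_pos
  obtain ⟨i, -, hi⟩ := exists_of_wt_pos (hη.trans_le h3)
  have h1 : (X.Y Φ r J (c.L i)).card ≤ D ^ J := by
    refine le_trans (Finset.card_le_card fun y hy => ?_) (hD.2.1 J)
    exact X.mem_B.2 (X.mem_S.1 (Finset.mem_filter.1 hy).1).le
  exact hi.trans (by exact_mod_cast h1)

omit [CompactSpace Z] in
theorem far_init {ω : Z} (h : ω ∈ Φ.D₂) : d / 2 ≤ infDist ω Φ.D₁ :=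
  (le_infDist ⟨_, Φ.mem⟩).2 fun a ha => by rw [dist_comm]; exact Φ.far a ha ω h

omit [CompactSpace Z] in
theorem val_init {K : Set Z} (hK : Leaf Φ K) {v : ℝ} (h0 : 0 ≤ v) (h1 : v ≤ d / 2) :
    ∃ ξ ∈ K, infDist ξ Φ.D₁ = v := by
  obtain ⟨a, ha, -⟩ := hK.e₁
  obtain ⟨b, hb, -⟩ := hK.e₂
  refine hK.pc.isConnected.isPreconnected.intermediate_value ha.1 hb.1
    (continuous_infDist_pt Φ.D₁).continuousOn ⟨?_, h1.trans (far_init (Φ.sub₂ hb.2))⟩
  rwa [infDist_zero_of_mem (Φ.sub₁ ha.2)]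

omit [CompactSpace Z] [ContinuousConstSMul G Z] in
theorem card_init (hd : 0 < d) {K : Set Z} (hK : Leaf Φ K) (J : ℕ) :
    d / (24 * X.C) * X.q⁻¹ ^ J ≤ ((X.Y Φ (d / 8) J K).card : ℝ) := by
  classical
  have hC : 0 < X.C := lt_of_lt_of_le one_pos X.C_ge
  have hq : 0 < X.q ^ J := pow_pos X.q_pos J
  obtain ⟨t, ht⟩ : ∃ t, t = X.C * X.q ^ J := ⟨_, rfl⟩
  have ht0 : 0 < t := by rw [ht]; positivity
  obtain ⟨n, hn⟩ : ∃ n, n = ⌊d / 8 / (3 * t)⌋₊ := ⟨_, rfl⟩
  have hn1 : (n : ℝ) * (3 * t) ≤ d / 8 := by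
    rw [← le_div_iff₀ (by positivity), hn]
    exact Nat.floor_le (by positivity)
  have hn2 : d / (24 * X.C) * X.q⁻¹ ^ J ≤ n + 1 := by
    refine le_trans (le_of_eq ?_) (hn ▸ (Nat.lt_floor_add_one (d / 8 / (3 * t))).le)
    rw [ht, inv_pow]
    field_simp
    ring
  have key : ∀ a : ℕ, ∃ (ξ : Z) (y : G), a ≤ n → ξ ∈ K ∧ infDist ξ Φ.D₁ = d / 8 + a * (3 * t) ∧
      X.ν y = J ∧ dist ξ (X.π y) ≤ t := by
    intro a
    by_cases ha : a ≤ n
    · have h1 : (a : ℝ) * (3 * t) ≤ n * (3 * t) :=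
        mul_le_mul_of_nonneg_right (by exact_mod_cast ha) (by positivity)
      obtain ⟨ξ, h2, h3⟩ := val_init hK (v := d / 8 + a * (3 * t)) (by positivity) (by linarith)
      obtain ⟨y, h4, h5⟩ := X.net J ξ
      exact ⟨ξ, y, fun _ => ⟨h2, h3, h4, ht ▸ h5⟩⟩
    · exact ⟨Φ.η, 1, fun h => absurd h ha⟩
  choose ξ y hy using key
  have h1 : (Finset.range (n + 1)).card ≤ (X.Y Φ (d / 8) J K).card := by
    refine Finset.card_le_card_of_injOn y (fun a ha => ?_) fun a ha b hb e => ?_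
    · have ha' : a ≤ n := Nat.lt_succ_iff.1 (Finset.mem_range.1 ha)
      obtain ⟨a1, a2, a3, a4⟩ := hy a ha'
      have h1 : (a : ℝ) * (3 * t) ≤ n * (3 * t) :=
        mul_le_mul_of_nonneg_right (by exact_mod_cast ha') (by positivity)
      have h2 : 0 ≤ (a : ℝ) * (3 * t) := by positivity
      refine Finset.mem_coe.2 (Finset.mem_filter.2 ⟨X.mem_S.2 a3, ξ a, a1, ht ▸ a4, ?_⟩)
      rintro ω (hω | hω)
      · linarith [infDist_le_dist_of_mem (x := ξ a) hω]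
      · linarith [far_init hω, infDist_le_infDist_add_dist (s := Φ.D₁) (x := ω) (y := ξ a),
          dist_comm ω (ξ a)]
    · obtain ⟨-, a2, -, a4⟩ := hy a (Nat.lt_succ_iff.1 (Finset.mem_range.1 ha))
      obtain ⟨-, b2, -, b4⟩ := hy b (Nat.lt_succ_iff.1 (Finset.mem_range.1 hb))
      rw [e] at a4
      have h1 := dist_triangle_right (ξ a) (ξ b) (X.π (y b))
      have h2 := infDist_le_infDist_add_dist (s := Φ.D₁) (x := ξ a) (y := ξ b)
      have h3 := infDist_le_infDist_add_dist (s := Φ.D₁) (x := ξ b) (y := ξ a)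
      rw [dist_comm] at h3
      have h4 : (a : ℝ) < b + 1 := lt_of_mul_lt_mul_right (a := 3 * t) (by linarith) (by positivity)
      have h5 : (b : ℝ) < a + 1 := lt_of_mul_lt_mul_right (a := 3 * t) (by linarith) (by positivity)
      have h6 : a < b + 1 := by exact_mod_cast h4
      have h7 : b < a + 1 := by exact_mod_cast h5
      omega
  rw [Finset.card_range] at h1
  exact hn2.trans (by exact_mod_cast h1)

omit [CompactSpace Z] [ContinuousConstSMul G Z] in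

theorem ss_init (hd : 0 < d) (h : ∀ ε > 0, ∃ c : Conf X Φ P, c.m ≤ ε ∧ X.q ^ c.k ≤ ε) :
    ∃ r > 0, ∃ c > 0, ∀ J, SS X Φ P r J (c * X.q⁻¹ ^ J) 1 := by
  have hC : 0 < X.C := lt_of_lt_of_le one_pos X.C_ge
  refine ⟨d / 8, by positivity, d / (24 * X.C), by positivity, fun J ε hε => ?_⟩
  obtain ⟨c, h1, h2⟩ := h ε hε
  refine ⟨c, h1, h2, le_trans (le_of_eq ?_) (wt_mono (p := fun _ => True) c.nonneg
    fun i hi _ => card_init hd (c.leaf i hi) J)⟩
  simp [wtA, c.sum]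

end Vale.Agent.P198
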