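import Vale.Agent.P198.A.Thick

/-! P198 A/Tour: the tournament.
`GP.shadow`: `m2` with `x = 1` (`gp ν 1 y⁻¹ = 0`, `Pp 1 ξ ≤ 2 C` by `dist_le`). `tour`: `y = g g'⁻¹`, `j = ν y ≥ j₀`, `gp ν y g = j / 2`, so `dist (π y) (π g) ≤ C q ^ (j / 2)` (`m3`) and `π y` is `3 r / 4`-far from the discs.
If some point `y • ζ`, `ζ ∈ L i'`, is `r / 4`-far from `π y`, `shadow` (for `y` and `ζ`) gives the second alternative. Else `y • L i' ⊆ ball (π y) (r / 4)`; a point of `L i'` that is `d / 4`-far from `π y⁻¹`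
is mapped into `closedBall (π y) (κ q ^ j)`; `σ = y • L i' ∪` a `llc1` path from the witness `y • ξ'` to the witness `ξ ∈ L i` (distance `≤ C q⁻¹ ^ J * 4 C q ^ (k - J)` by `lip`), `σ ⊆ thick (θ q ^ k) y (L i')`,
light since `i'` is good; `L i ⊆ thick _ 1 (L i)` is light; `¬ Esc` gives a point of `L i` in `closedBall (π y) (Λ (κ q ^ j))`.
`card_tour`: `card ^ 2 ≤ 2 * card * T`. Auxiliary names end in `_tour`. -/

namespace Vale.Agent.P198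
open Set Metric Filter Topology
open scoped Pointwise
variable {G Z : Type} [Group G] [MetricSpace Z] [CompactSpace Z] [MulAction G Z]
  [ContinuousConstSMul G Z] {d : ℝ}

theorem GP.shadow (X : GP G Z) (y : G) (ξ : Z) :
    dist (y • ξ) (X.π y) * dist ξ (X.π y⁻¹) ≤ 2 * X.C ^ 2 * X.q ^ X.ν y := by
  have h := (X.m2 y 1 ξ).1
  have h0 : X.ν 1 = 0 := (X.wn.zero_iff 1).2 rfl
  have e : gp X.ν 1 y⁻¹ = 0 := by simp [gp, h0]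
  have h1 : Pp X.ν X.π X.q 1 ξ ≤ 2 * X.C :=
    max_le (X.dist_le _ _) (by rw [h0, pow_zero]; linarith [X.C_ge])
  rw [e, pow_zero, one_mul, mul_one] at h
  have h2 := mul_le_mul_of_nonneg_left (mul_le_mul_of_nonneg_left h1 (pow_pos X.q_pos (X.ν y)).le)
    X.C_pos.le
  rw [dist_comm (y • ξ), dist_comm ξ]
  refine (mul_le_mul (le_max_left _ _) (le_max_left _ _) dist_nonneg
    (le_max_of_le_left dist_nonneg)).trans ((h.trans h2).trans (le_of_eq ?_))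
  ring

theorem card_tour {s : Finset G} {O : G → Finset G} {T : ℝ} (hT : 0 ≤ T)
    (h : ∀ g ∈ s, ∀ g' ∈ s, g * g'⁻¹ ∈ O g ∨ g' * g⁻¹ ∈ O g') (hO : ∀ g ∈ s, ((O g).card : ℝ) ≤ T) :
    (s.card : ℝ) ≤ 2 * T := by
  classical
  have h1 : ∀ g ∈ s, ∑ g' ∈ s, (if g * g'⁻¹ ∈ O g then (1 : ℝ) else 0) ≤ T := fun g hg => by
    rw [Finset.sum_boole]
    refine le_trans (Nat.cast_le.2 (Finset.card_le_card_of_injOn (fun g' => g * g'⁻¹)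
      (fun g' hg' => (Finset.mem_filter.1 hg').2) fun a _ b _ e => ?_)) (hO g hg)
    exact inv_injective (mul_left_cancel e)
  have h2 := Finset.sum_le_card_nsmul s _ T h1
  have h3 : ∑ _g ∈ s, ∑ _g' ∈ s, (1 : ℝ) ≤ ∑ g ∈ s, ∑ g' ∈ s,
      ((if g * g'⁻¹ ∈ O g then (1 : ℝ) else 0) + if g' * g⁻¹ ∈ O g' then (1 : ℝ) else 0) :=
    Finset.sum_le_sum fun g hg => Finset.sum_le_sum fun g' hg' => by
      rcases h g hg g' hg' with h4 | h4 <;> rw [if_pos h4] <;> split_ifs <;> norm_num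
  simp only [Finset.sum_add_distrib] at h3
  rw [Finset.sum_comm (f := fun g g' => if g' * g⁻¹ ∈ O g' then (1 : ℝ) else 0)] at h3
  simp only [Finset.sum_const, nsmul_eq_mul, mul_one] at h2 h3
  rcases (Nat.cast_nonneg (α := ℝ) s.card).eq_or_lt with h0 | h0
  · linarith
  · exact le_of_mul_le_mul_left (by linarith) h0

omit [CompactSpace Z] [ContinuousConstSMul G Z] in
theorem mem_Y_tour {X : GP G Z} {Φ : Frame Z d} {r : ℝ} {J : ℕ} {K : Set Z} {y : G} :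
    y ∈ X.Y Φ r J K ↔ X.ν y = J ∧ ∃ ξ ∈ K, dist ξ (X.π y) ≤ X.C * X.q ^ J ∧
      ∀ ω ∈ Φ.D₁ ∪ Φ.D₂, r ≤ dist ξ ω := by
  classical
  rw [GP.Y, Finset.mem_filter, X.mem_S]

omit [CompactSpace Z] [ContinuousConstSMul G Z] in
theorem mem_Out_tour {X : GP G Z} {κ : ℝ} {j₀ J : ℕ} {K : Set Z} {g y : G} :
    y ∈ X.Out κ j₀ J K g ↔ X.ν y ≤ 2 * J ∧ X.ν (y⁻¹ * g) = J ∧
      (X.ν y < j₀ ∨ ∃ ξ ∈ K, dist ξ (X.π y) ≤ κ * X.q ^ X.ν y) := by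
  classical
  rw [GP.Out, Finset.mem_filter, X.mem_B]

theorem div_tour {a b s A t : ℝ} (hs : 0 < s) (hb : 0 ≤ b) (h : s ≤ a) (h' : a * b ≤ A * t) :
    b ≤ A / s * t := by
  rw [div_mul_eq_mul_div, le_div_iff₀' hs]
  exact (mul_le_mul_of_nonneg_right h hb).trans h'

omit [CompactSpace Z] [ContinuousConstSMul G Z] in
theorem mass_tour {X : GP G Z} {Φ : Frame Z d} {P : ℝ} (c : Conf X Φ P) {K K' : Set Z}
    (h : K ⊆ K') : c.mass K ≤ c.mass K' :=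
  wt_mono c.nonneg fun _ _ hi => hi.mono (inter_subset_inter_right _ h)

omit [CompactSpace Z] in
theorem far_tour {Φ : Frame Z d} {K : Set Z} (h : Leaf Φ K) (p : Z) : ∃ ζ ∈ K, d / 4 ≤ dist ζ p := by
  obtain ⟨a, ha, -⟩ := h.e₁
  obtain ⟨b, hb, -⟩ := h.e₂
  have h1 := Φ.far a (Φ.sub₁ ha.2) b (Φ.sub₂ hb.2)
  have h2 := dist_triangle_right a b p
  rcases le_total (d / 4) (dist a p) with h3 | h3
  · exact ⟨a, ha.1, h3⟩
  · exact ⟨b, hb.1, by linarith⟩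

theorem wit_tour {X : GP G Z} {k J : ℕ} {g g' z : G} {K K' : Set Z} (hg : X.ν g = J) (hJ : J ≤ k)
    (h : X.Mt (k - J) (g⁻¹ • K) z) (h' : X.Mt (k - J) (g'⁻¹ • K') z) : ∃ ξ ∈ K, ∃ ξ' ∈ K',
      dist ((g * g'⁻¹) • ξ') ξ ≤ X.C * X.q⁻¹ ^ J * (4 * X.C * X.q⁻¹ ^ J) * X.q ^ k := by
  obtain ⟨_, ⟨ξ, hξ, rfl⟩, h1⟩ := h
  obtain ⟨_, ⟨ξ', hξ', rfl⟩, h2⟩ := h'
  refine ⟨ξ, hξ, ξ', hξ', ?_⟩
  have h3 := X.lip g (g'⁻¹ • ξ') (g⁻¹ • ξ)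
  have h4 := dist_triangle_right (g'⁻¹ • ξ') (g⁻¹ • ξ) (X.π z)
  have hC := X.C_pos
  have hq := X.q_pos
  rw [smul_inv_smul, smul_smul, hg] at h3
  rw [pow_sub₀ _ hq.ne' hJ, ← inv_pow] at h1 h2
  rw [mul_assoc]
  exact h3.trans (mul_le_mul_of_nonneg_left (by linarith) (by positivity))

theorem tour (X : GP G Z) (hd : 0 < d) (Φ : Frame Z d) (P : ℝ) {r Λ : ℝ} (hr : 0 < r)
    (hΛ : 1 ≤ Λ) : ∃ κ > 0, ∃ κ₃ > 0, ∃ j₁ : ℕ, ∀ j₀ ≥ j₁, ∀ J : ℕ, ∃ θ : ℝ, ∃ ε > 0,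
      ∀ (c : Conf X Φ P) (δ : ℝ), X.q ^ c.k ≤ ε → J ≤ c.k → ∀ (z : G), ∀ i ∈ c.F, ∀ i' ∈ c.F,
        c.Good J θ κ Λ δ i → c.Good J θ κ Λ δ i' → ∀ g ∈ X.Y Φ r J (c.L i),
          ∀ g' ∈ X.Y Φ r J (c.L i'), X.Mt (c.k - J) (g⁻¹ • c.L i) z →
            X.Mt (c.k - J) (g'⁻¹ • c.L i') z →
              g * g'⁻¹ ∈ X.Out κ₃ j₀ J (c.L i) g ∨ g' * g⁻¹ ∈ X.Out κ₃ j₀ J (c.L i') g' := by
  obtain ⟨Λ₁, hΛ₁, hl⟩ := X.llc1
  have hC := X.C_pos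
  have hq := X.q_pos
  obtain ⟨κ, hκ⟩ : ∃ κ, κ = 2 * X.C ^ 2 / (d / 4) := ⟨_, rfl⟩
  have κ0 : 0 < κ := by
    rw [hκ]
    positivity
  obtain ⟨n, hn⟩ := exists_pow_lt_of_lt_one
    (by positivity : 0 < r / 4 / (2 * X.C + Λ * κ)) X.q_lt
  rw [lt_div_iff₀ (by positivity)] at hn
  refine ⟨κ, κ0, 2 * X.C ^ 2 / (r / 4) + Λ * κ, by positivity, 2 * n, fun j₀ hj₀ J => ?_⟩
  obtain ⟨θ, hθ⟩ : ∃ θ, θ = Λ₁ * (X.C * X.q⁻¹ ^ J * (4 * X.C * X.q⁻¹ ^ J)) := ⟨_, rfl⟩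
  have θ0 : 0 < θ := by
    rw [hθ]
    positivity
  refine ⟨θ, r / 4 / θ, by positivity,
    fun c δ hε hJ z i hi i' hi' gi gi' g hg g' hg' hM hM' => ?_⟩
  obtain ⟨hg1, ξ₀, -, hξ₀, hfar⟩ := mem_Y_tour.1 hg
  have hg2 := (mem_Y_tour.1 hg').1
  obtain ⟨y, hy⟩ : ∃ y, y = g * g'⁻¹ := ⟨_, rfl⟩
  have y1 : g' * g⁻¹ = y⁻¹ := by rw [hy, mul_inv_rev, inv_inv]
  have y2 : X.ν y ≤ 2 * J := by
    have := X.wn.mul g g'⁻¹
    rw [X.wn.inv, ← hy] at this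
    omega
  have y3 : X.ν (y⁻¹ * g) = J := by rw [← y1, inv_mul_cancel_right, hg2]
  have y4 : X.ν (y⁻¹⁻¹ * g') = J := by rw [inv_inv, hy, inv_mul_cancel_right, hg1]
  rw [y1, ← hy, mem_Out_tour, mem_Out_tour, X.wn.inv]
  by_cases hj : X.ν y < j₀
  · exact Or.inl ⟨y2, y3, Or.inl hj⟩
  have p0 := pow_pos hq (X.ν y)
  by_cases hA : ∃ ζ ∈ c.L i', r / 4 ≤ dist (y • ζ) (X.π y)
  · obtain ⟨ζ, hζ, h⟩ := hA
    refine Or.inr ⟨y2, y4, Or.inr ⟨ζ, hζ, (div_tour (by positivity) dist_nonneg h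
      (X.shadow y ζ)).trans (mul_le_mul_of_nonneg_right ?_ p0.le)⟩⟩
    exact le_add_of_nonneg_right (by positivity)
  push Not at hA
  have a1 : X.q ^ (X.ν y / 2) ≤ X.q ^ n := pow_le_pow_of_le_one hq.le X.q_lt.le (by omega)
  have a2 : X.q ^ J ≤ X.q ^ n := pow_le_pow_of_le_one hq.le X.q_lt.le (by omega)
  have a3 : X.q ^ X.ν y ≤ X.q ^ n := pow_le_pow_of_le_one hq.le X.q_lt.le (by omega)
  have a4 : dist (X.π y) (X.π g) ≤ X.C * X.q ^ (X.ν y / 2) := by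
    have e : gp X.ν y g = X.ν y / 2 := by rw [gp, y3, hg1, Nat.add_sub_cancel]
    exact (le_max_left _ _).trans (e ▸ (X.m3 y g).2)
  have a5 : 0 < X.q ^ n * (Λ * κ) := by positivity
  have a6 : 0 < X.q ^ n * X.C := by positivity
  have hdis : Disjoint (closedBall (X.π y) (r / 2)) (Φ.D₁ ∪ Φ.D₂) := disjoint_left.2 fun ω h h' => by
    have b1 := hfar ω h'
    have b2 := dist_triangle4 ξ₀ (X.π g) (X.π y) ω
    rw [mem_closedBall, dist_comm] at h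
    rw [dist_comm] at a4
    nlinarith [mul_le_mul_of_nonneg_left a1 hC.le, mul_le_mul_of_nonneg_left a2 hC.le]
  have a7 : Λ * (κ * X.q ^ X.ν y) ≤ r / 2 := by
    nlinarith [mul_le_mul_of_nonneg_left a3 (by positivity : 0 ≤ Λ * κ)]
  have hE := (gi y (X.mem_B.2 y2)).2 (hdis.mono_left (closedBall_subset_closedBall a7))
  have t0 : 0 ≤ θ * X.q ^ c.k := by positivity
  have t1 : θ * X.q ^ c.k ≤ r / 4 := by rwa [le_div_iff₀' θ0] at hε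
  have m1 : c.mass (c.L i) ≤ δ :=
    (mass_tour c (K' := thick (θ * X.q ^ c.k) (1 : G) (c.L i))
      fun ξ hξ => ⟨ξ, hξ, by rwa [one_smul, dist_self]⟩).trans
      (gi 1 (X.mem_B.2 (by rw [(X.wn.zero_iff 1).2 rfl]; omega))).1
  obtain ⟨ξ, hξ, ξ', hξ', hdd⟩ := wit_tour hg1 hJ hM hM'
  rw [← hy] at hdd
  obtain ⟨γ, hγ⟩ := hl (y • ξ') ξ
  have hγ' : ∀ t, dist (γ t) (y • ξ') ≤ θ * X.q ^ c.k := fun t =>
    (mem_closedBall.1 (hγ t)).trans (by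
      rw [hθ, mul_assoc]
      exact mul_le_mul_of_nonneg_left hdd (by linarith))
  obtain ⟨ζ, hζ, hζ'⟩ := far_tour (c.leaf i' hi') (X.π y⁻¹)
  have b1 : dist (y • ζ) (X.π y) ≤ κ * X.q ^ X.ν y :=
    hκ ▸ div_tour (by positivity) dist_nonneg hζ' ((mul_comm _ _).trans_le (X.shadow y ζ))
  by_cases hD : Disjoint (c.L i) (closedBall (X.π y) (Λ * (κ * X.q ^ X.ν y)))
  · refine absurd ⟨hD, m1, (fun ζ => y • ζ) '' c.L i' ∪ range γ,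
      ((c.leaf i' hi').pc.image (continuous_const_smul y)).union
        (γ.extend_range ▸ isPathConnected_range γ.continuous_extend) ⟨y • ξ', ⟨ξ', hξ', rfl⟩, 0, γ.source⟩,
      hdis.mono_left ?_, ⟨ξ, Or.inr ⟨1, γ.target⟩, hξ⟩, ⟨y • ζ, Or.inl ⟨ζ, hζ, rfl⟩, b1⟩,
      (mass_tour c ?_).trans (gi' y (X.mem_B.2 y2)).1⟩ hE
    · rintro _ (⟨ζ, hζ, rfl⟩ | ⟨t, rfl⟩)
      · exact mem_closedBall.2 (by linarith [hA ζ hζ])
      · exact mem_closedBall.2 (by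
          linarith [hA ξ' hξ', hγ' t, dist_triangle (γ t) (y • ξ') (X.π y)])
    · rintro _ (⟨ζ, hζ, rfl⟩ | ⟨t, rfl⟩)
      · exact ⟨ζ, hζ, by rwa [dist_self]⟩
      · exact ⟨ξ', hξ', hγ' t⟩
  · obtain ⟨ω, h1, h2⟩ := not_disjoint_iff.1 hD
    refine Or.inl ⟨y2, y3, Or.inr ⟨ω, h1, (mem_closedBall.1 h2).trans ?_⟩⟩
    rw [← mul_assoc]
    exact mul_le_mul_of_nonneg_right (le_add_of_nonneg_left (by positivity)) p0.le

end Vale.Agent.P198
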