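import Vale.Agent.P198.A.Super
import Vale.Agent.P198.A.Tour
import Vale.Agent.P198.A.High

/-! P198 A/Step: the improvement step (helper30). -/

namespace Vale.Agent.P198
open Set Metric Filter Topology
open scoped Pointwise
variable {G Z : Type} [Group G] [MetricSpace Z] [CompactSpace Z] [MulAction G Z]
  [ContinuousConstSMul G Z] {d : ℝ}

theorem markov_step {ι : Type} {F : Finset ι} {w : ι → ℝ} (hw : ∀ i, 0 ≤ w i) (f : ι → ℝ)
    (hf : ∀ i, 0 ≤ f i) (a : ℝ) : a * wtA F w (fun i => a ≤ f i) ≤ ∑ i ∈ F, w i * f i := by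
  rw [wt_eq, Finset.mul_sum]
  refine Finset.sum_le_sum fun i _ => ?_
  split_ifs with h
  · rw [mul_comm]; exact mul_le_mul_of_nonneg_left h (hw i)
  · rw [mul_zero]; exact mul_nonneg (hw i) (hf i)

theorem pigeon_step {α : Type} (s : Finset α) (Q : α → ℝ → Prop)
    (hQ : ∀ a ε ε', ε ≤ ε' → Q a ε → Q a ε') (h : ∀ ε > 0, ∃ a ∈ s, Q a ε) :
    ∃ a ∈ s, ∀ ε > 0, Q a ε := by
  classical
  by_contra hn
  push Not at hn
  choose! e he he' using hn
  obtain ⟨a₀, ha₀, -⟩ := h 1 one_pos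
  obtain ⟨b, hb, hmin⟩ := s.exists_min_image e ⟨a₀, ha₀⟩
  obtain ⟨a, ha, hq⟩ := h (e b) (he b hb)
  exact he' a ha (hQ a _ _ (hmin a ha) hq)

theorem wt_pigeon_step {ι : Type} {F : Finset ι} {w : ι → ℝ} (hw : ∀ i, 0 ≤ w i) (n : ℕ)
    (Q : ℕ → ι → Prop) {a : ℝ} (h : (n + 1) * a ≤ wtA F w fun i => ∃ j ≤ n, Q j i) :
    ∃ j ≤ n, a ≤ wtA F w (Q j) := by
  by_contra hn
  push Not at hn
  have h1 := wt_exists_le (F := F) hw (Finset.range (n + 1)) Q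
  have h2 : ∑ j ∈ Finset.range (n + 1), wtA F w (Q j) < ∑ _j ∈ Finset.range (n + 1), a :=
    Finset.sum_lt_sum_of_nonempty ⟨0, by simp⟩ fun j hj =>
      hn j (Nat.lt_succ_iff.1 (Finset.mem_range.1 hj))
  simp only [Finset.sum_const, Finset.card_range, nsmul_eq_mul, Nat.cast_add, Nat.cast_one] at h2
  have h3 : (wtA F w fun i => ∃ j ≤ n, Q j i) ≤
      wtA F w fun i => ∃ j ∈ Finset.range (n + 1), Q j i :=
    wt_mono hw fun i _ ⟨j, hj, hq⟩ => ⟨j, Finset.mem_range.2 (Nat.lt_succ_iff.2 hj), hq⟩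
  linarith

theorem num_step {η x A A' B J E : ℝ} (hB : 0 < B) (hA' : 1 ≤ A') (hJ : 0 ≤ J) (hE : 0 < E)
    (hx : 0 < x) (h1 : B * A' ≤ A) (h2 : 2 * A' ≤ A) :
    η ^ 2 * x ^ 2 / (A * (J + 1)) * max 1 (x / (A * (J + 1) * E)) ≤
      η ^ 2 * x ^ 2 / B / (A' * (J + 1)) * max 1 (x / 2 / (A' * (J + 1) * E)) := by
  have hA'0 : 0 < A' := by linarith
  have hJ1 : 0 < J + 1 := by linarith
  refine mul_le_mul ?_ (max_le_max le_rfl ?_) (by positivity) (by positivity)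
  · rw [div_div]
    refine div_le_div_of_nonneg_left (by positivity) (by positivity) ?_
    rw [← mul_assoc]; exact mul_le_mul_of_nonneg_right h1 hJ1.le
  · rw [div_div]
    refine div_le_div_of_nonneg_left hx.le (by positivity) ?_
    calc 2 * (A' * (J + 1) * E) = 2 * A' * ((J + 1) * E) := by ring
      _ ≤ A * ((J + 1) * E) := mul_le_mul_of_nonneg_right h2 (by positivity)
      _ = _ := by ring

theorem ss_step (X : GP G Z) : ∃ d₁ > 0, ∀ d ≤ d₁, 0 < d → ∀ (Φ : Frame Z d) (P : ℝ), 1 ≤ P →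
    ∀ N D : ℕ, X.Cone N D → ∀ r > 0, ∃ r' > 0, ∃ A ≥ (1 : ℝ), ∀ (J : ℕ) (x η : ℝ), A ≤ J → 0 < x →
      0 < η → A ≤ η ^ 2 * x ^ 2 → SS X Φ P r J x η → ∃ j ≤ 2 * J, SS X Φ P r' j
        (η ^ 2 * x ^ 2 / (A * (J + 1)) * max 1 (x / (A * (J + 1) * (D : ℝ) ^ (J - j / 2))))
        (η / (A * (J + 1))) := by
  classical
  obtain ⟨d₁, hd₁, A₄, hA₄, hsup⟩ := super X
  refine ⟨d₁, hd₁, fun d hd hd0 Φ P hP N D hD r hr => ?_⟩
  obtain ⟨Λ, hΛ, hesc⟩ := esc_small X hd0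
  obtain ⟨κ, hκ, κ₃, hκ₃, j₁, htour⟩ := tour X hd0 Φ P hr hΛ
  obtain ⟨j₂, hhigh⟩ := high X Φ hD hr hκ₃
  obtain ⟨A', hA', hhigh⟩ := hhigh (max j₁ j₂) (le_max_right _ _)
  replace htour := htour (max j₁ j₂) (le_max_left _ _)
  generalize max j₁ j₂ = j₀ at htour hhigh
  obtain ⟨J₀, hJ₀⟩ := exists_pow_lt_of_lt_one (show 0 < d / 4 by positivity) X.q_lt
  set B := 128 * A₄ * P with hB
  have hB0 : 0 < B := by positivity
  refine ⟨r / 2, by positivity, B * A' + 2 * A' + 4 + J₀, ?_, fun J x η hJ hx hη hxη hS => ?_⟩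
  · have : 0 ≤ B * A' := by positivity
    have : (0 : ℝ) ≤ J₀ := Nat.cast_nonneg _
    linarith
  set A := B * A' + 2 * A' + 4 + J₀ with hA
  have hBA : 0 ≤ B * A' := by positivity
  have hJ0 : (0 : ℝ) ≤ J₀ := Nat.cast_nonneg _
  have hqJ : X.q ^ J ≤ d / 4 := by
    refine le_trans (pow_le_pow_of_le_one X.q_pos.le X.q_lt.le ?_) hJ₀.le
    have : (J₀ : ℝ) ≤ J := by linarith
    exact_mod_cast this
  obtain ⟨θ, ε₁, hε₁, htour⟩ := htour J
  obtain ⟨δ, ε₂, hε₂, hgood⟩ := good_most X (hesc Φ P) J θ κ (show 0 < η / 4 by positivity)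
  set T := η ^ 2 * x ^ 2 / B with hT
  have hT0 : 0 ≤ T := by positivity
  have hTA : A' ≤ T := by rw [hT, le_div_iff₀ hB0]; linarith
  let V : ℕ → ℝ := fun j =>
    η ^ 2 * x ^ 2 / (A * (J + 1)) * max 1 (x / (A * (J + 1) * (D : ℝ) ^ (J - j / 2)))
  suffices H : ∀ ε > 0, ∃ j ∈ Finset.range (2 * J + 1), ∃ c : Conf X Φ P, c.m ≤ ε ∧
      X.q ^ c.k ≤ ε ∧ η / (A * (J + 1)) ≤
        wtA c.F c.w fun i => V j ≤ ((X.Y Φ (r / 2) j (c.L i)).card : ℝ) by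
    obtain ⟨j, hj, H⟩ := pigeon_step _ _ (fun j ε ε' h ⟨c, h1, h2, h3⟩ =>
      ⟨c, h1.trans h, h2.trans h, h3⟩) H
    exact ⟨j, Nat.lt_succ_iff.1 (Finset.mem_range.1 hj), H⟩
  intro ε hε
  obtain ⟨c, hm, hk, hw⟩ := hS (min (min ε ε₁) (min ε₂ (X.q ^ J)))
    (lt_min (lt_min hε hε₁) (lt_min hε₂ (pow_pos X.q_pos J)))
  simp only [le_min_iff] at hm hk
  have hJk : J ≤ c.k := (pow_le_pow_iff_right_of_lt_one₀ X.q_pos X.q_lt).1 hk.2.2
  obtain ⟨sel, hsel⟩ : ∃ sel : c.ι → G → Prop, ∀ i g, sel i g ↔ c.Good J θ κ Λ δ i ∧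
      g ∈ X.Y Φ r J (c.L i) ∧ ((X.Out κ₃ j₀ J (c.L i) g).card : ℝ) ≤ T := ⟨_, fun _ _ => Iff.rfl⟩
  have h1 := hsup d hd Φ P c J (2 * T) sel hqJ hJk (by positivity)
    (fun i g hs => by
      obtain ⟨ξ, hξ, h, -⟩ := (Finset.mem_filter.1 ((hsel _ _).1 hs).2.1).2
      exact ⟨ξ, hξ, h⟩)
    (fun z _ => by
      have hc : ∀ g : G, ∃ i : Option c.ι, ∀ i' ∈ c.F, sel i' g → X.Mt (c.k - J) (g⁻¹ • c.L i') z →
          ∃ i₀, i = some i₀ ∧ i₀ ∈ c.F ∧ sel i₀ g ∧ X.Mt (c.k - J) (g⁻¹ • c.L i₀) z := fun g => by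
        by_cases h : ∃ i ∈ c.F, sel i g ∧ X.Mt (c.k - J) (g⁻¹ • c.L i) z
        · obtain ⟨i, h⟩ := h
          exact ⟨some i, fun _ _ _ _ => ⟨i, rfl, h⟩⟩
        · exact ⟨none, fun i' h1 h2 h3 => (h ⟨i', h1, h2, h3⟩).elim⟩
      choose f hf using hc
      refine card_tour (O := fun g => (f g).elim ∅ fun i => X.Out κ₃ j₀ J (c.L i) g) hT0 ?_ ?_
      · intro g hg g' hg'
        obtain ⟨i, hi, hs, hm⟩ := (Finset.mem_filter.1 hg).2
        obtain ⟨i', hi', hs', hm'⟩ := (Finset.mem_filter.1 hg').2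
        obtain ⟨a, ea, ha, hsa, hma⟩ := hf g i hi hs hm
        obtain ⟨b, eb, hb, hsb, hmb⟩ := hf g' i' hi' hs' hm'
        simp only [ea, eb, Option.elim_some]
        rw [hsel] at hsa hsb
        exact htour c δ hk.1.2 hJk z a ha b hb hsa.1 hsb.1 g hsa.2.1 g' hsb.2.1 hma hmb
      · intro g hg
        obtain ⟨i, hi, hs, hm⟩ := (Finset.mem_filter.1 hg).2
        obtain ⟨a, ea, -, hsa, -⟩ := hf g i hi hs hm
        simp only [ea, Option.elim_some]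
        exact ((hsel _ _).1 hsa).2.2)
  have h2 : ∑ i ∈ c.F, c.w i * (((X.S J).filter (sel i)).card : ℝ) ≤ η * x / 8 := by
    refine le_of_sq_le_sq (le_trans h1 (le_of_eq ?_)) (by positivity)
    rw [hT, hB]; field_simp; ring
  have h3 := markov_step (F := c.F) c.nonneg (fun i => (((X.S J).filter (sel i)).card : ℝ))
    (fun i => Nat.cast_nonneg _) (x / 2)
  have h4 : (wtA c.F c.w fun i => x / 2 ≤ (((X.S J).filter (sel i)).card : ℝ)) ≤ η / 4 := by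
    refine le_of_mul_le_mul_left (h3.trans (h2.trans (le_of_eq ?_))) (show 0 < x / 2 by positivity)
    ring
  have h5 := hgood c hm.2.1
  have h6 : (wtA c.F c.w fun i => x ≤ ((X.Y Φ r J (c.L i)).card : ℝ)) ≤
      wtA c.F c.w fun i => (¬ c.Good J θ κ Λ δ i ∨ x / 2 ≤ (((X.S J).filter (sel i)).card : ℝ)) ∨
        ∃ j ≤ 2 * J, V j ≤ ((X.Y Φ (r / 2) j (c.L i)).card : ℝ) := by
    refine wt_mono c.nonneg fun i _ hi => ?_
    by_cases hg : c.Good J θ κ Λ δ i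
    swap
    · exact Or.inl (Or.inl hg)
    by_cases hl : x / 2 ≤ (((X.S J).filter (sel i)).card : ℝ)
    · exact Or.inl (Or.inr hl)
    right
    have hc := Finset.card_filter_add_card_filter_not (s := X.Y Φ r J (c.L i)) (sel i)
    have hc' : ((X.Y Φ r J (c.L i)).filter (sel i)).card ≤ ((X.S J).filter (sel i)).card :=
      Finset.card_le_card (Finset.filter_subset_filter _ (Finset.filter_subset _ _))
    obtain ⟨j, hj, h⟩ := hhigh (c.L i) J T (x / 2) ((X.Y Φ r J (c.L i)).filter fun g => ¬ sel i g)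
      hTA (by positivity) (Finset.filter_subset _ _)
      (by
        have e1 : (((X.Y Φ r J (c.L i)).filter (sel i)).card : ℝ) +
          ((X.Y Φ r J (c.L i)).filter fun g => ¬ sel i g).card = (X.Y Φ r J (c.L i)).card := by
          exact_mod_cast hc
        have e2 : (((X.Y Φ r J (c.L i)).filter (sel i)).card : ℝ) ≤
          ((X.S J).filter (sel i)).card := by exact_mod_cast hc'
        linarith [not_le.1 hl])
      (fun g hg' => by
        obtain ⟨h1, h2⟩ := Finset.mem_filter.1 hg'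
        exact (not_le.1 fun h => h2 ((hsel _ _).2 ⟨hg, h1, h⟩)).le)
    refine ⟨j, hj, le_trans (num_step hB0 hA' (Nat.cast_nonneg _) ?_ hx ?_ ?_) h⟩
    · have := hD.1
      positivity
    · linarith
    · linarith
  have h7 := (h6.trans (wt_or_le c.nonneg)).trans (add_le_add_left (wt_or_le c.nonneg) _)
  obtain ⟨j, hj, h8⟩ := wt_pigeon_step (F := c.F) c.nonneg (2 * J)
    (fun j i => V j ≤ ((X.Y Φ (r / 2) j (c.L i)).card : ℝ)) (a := η / (A * (J + 1))) (by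
      refine le_trans ?_ (show η / 2 ≤ _ by linarith)
      have hJ' : (0 : ℝ) ≤ J := Nat.cast_nonneg _
      have hA4 : 4 ≤ A := by linarith
      rw [← mul_div_assoc, div_le_div_iff₀ (by positivity) two_pos]
      push_cast
      nlinarith [mul_nonneg (mul_nonneg hη.le (sub_nonneg.2 hA4)) (show 0 ≤ (J : ℝ) + 1 by linarith)])
  exact ⟨j, Finset.mem_range.2 (Nat.lt_succ_iff.2 hj), c, hm.1.1, hk.1.1, h8⟩

end Vale.Agent.P198
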