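import Vale.Agent.P198.A.Record
import Vale.Agent.P198.A.Init
import Vale.Agent.P198.A.Step
import Vale.Agent.P198.A.Exp

/-! # P198 block A: bounded modulus -/

namespace Vale.Agent.P198
open Set Metric Filter Topology
open scoped Pointwise
variable {G Z : Type} [Group G] [MetricSpace Z] [CompactSpace Z] [MulAction G Z]
  [ContinuousConstSMul G Z] {d : ℝ}

theorem GP.bm (X : GP G Z) : X.BM := by
  obtain ⟨d₁, hd₁, H⟩ := ss_step X
  obtain ⟨N, D, hD⟩ : ∃ N D, X.Cone N D := X.cone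
  have key : ∀ d ≤ d₁, 0 < d → ∃ m > 0, ∀ k, X.Lower d k m := fun d hd hd0 => by
    by_contra h
    obtain ⟨Φ, P, hP, hc⟩ := X.exists_conf hd0 h
    obtain ⟨r, hr, c, hc0, hi⟩ := ss_init hd0 hc
    exact exp_false (SS X Φ P) D hD.1 (fun _ _ _ _ _ _ h hx hη => h.mono hx hη)
      (fun _ _ _ _ h hη => h.bd hD hη) ⟨r, hr, c, hc0, _, (one_lt_inv₀ X.q_pos).2 X.q_lt, hi⟩
      (H d hd hd0 Φ P hP N D hD)
  intro d hd
  obtain ⟨m, hm, h⟩ := key (min d d₁) (min_le_right _ _) (lt_min hd hd₁)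
  refine ⟨2 * X.C, 1 / m, fun k => ?_⟩
  obtain ⟨ρ, h0, h1, h2⟩ := X.adm_of_lower hm (h k)
  exact ⟨ρ, h0, h1, fun γ hγ => h2 γ ((min_le_left _ _).trans hγ)⟩

end Vale.Agent.P198
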