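import Vale.Agent.P198.A.Defs

/-! P198 A/Primal: duality.
`lower_card`: each nonempty set meets a cell (`net`), so the sum over `x` of the weights is at least the total weight; Cauchy-Schwarz
(`sq_sum_le_card_mul_sum_sq`). `adm_of_lower`: the patterns `{x ∈ S k | Mt k K x}`, `DS d K`, form a finite set of vectors of
`EuclideanSpace ℝ (X.S k)`; take the point `ρ₀` of least norm of their convex hull (compact; `exists_norm_eq_iInf_of_complete_convex`,
`norm_eq_iInf_iff_real_inner_le_zero`, or minimize over the standard simplex and differentiate along a segment); `m ≤ ‖ρ₀‖ ^ 2` by `Lower`,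
`ρ = ρ₀ / ‖ρ₀‖ ^ 2`, apply to `K = range γ`. If there is no such `K` take `ρ = 0`. Auxiliary names end in `_prim`. -/

namespace Vale.Agent.P198
open Set Metric Filter Topology
open scoped Pointwise
variable {G Z : Type} [Group G] [MetricSpace Z] [CompactSpace Z] [MulAction G Z]
  [ContinuousConstSMul G Z] {d : ℝ}

theorem min_prim {ι α : Type} [Fintype ι] [Nonempty ι] (S : Finset α) (a : ι → α → ℝ) :
    ∃ w : ι → ℝ, (∀ i, 0 ≤ w i) ∧ ∑ i, w i = 1 ∧
      ∀ j, ∑ x ∈ S, (∑ i, w i * a i x) ^ 2 ≤ ∑ x ∈ S, (∑ i, w i * a i x) * a j x := by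
  classical
  obtain ⟨w, hw, hm⟩ := (isCompact_stdSimplex ℝ ι).exists_isMinOn
    ⟨_, single_mem_stdSimplex ℝ (Classical.arbitrary ι)⟩
    (f := fun w => ∑ x ∈ S, (∑ i, w i * a i x) ^ 2) (by fun_prop)
  refine ⟨w, hw.1, hw.2, fun j => ?_⟩
  have key : ∀ t ∈ Ioo (0 : ℝ) 1, 0 ≤ 2 * (∑ x ∈ S, (∑ i, w i * a i x) * a j x -
      ∑ x ∈ S, (∑ i, w i * a i x) ^ 2) + t * ∑ x ∈ S, (a j x - ∑ i, w i * a i x) ^ 2 := by
    intro t ht
    have h := hm (convex_stdSimplex ℝ ι hw (single_mem_stdSimplex ℝ j) (sub_nonneg.2 ht.2.le)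
      ht.1.le (sub_add_cancel 1 t))
    have e : ∀ x, ∑ i, ((1 - t) • w + t • (Pi.single j 1 : ι → ℝ)) i * a i x =
        (1 - t) * ∑ i, w i * a i x + t * a j x := fun x => by
      simp [add_mul, Finset.sum_add_distrib, mul_assoc, ← Finset.mul_sum, Pi.single_apply]
    simp only [mem_ofPred_eq, e] at h
    refine nonneg_of_mul_nonneg_right ((sub_nonneg.2 h).trans_eq ?_) ht.1
    simp only [Finset.mul_sum S, ← Finset.sum_add_distrib, ← Finset.sum_sub_distrib]
    exact Finset.sum_congr rfl fun x _ => by ring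
  have := ge_of_tendsto (((continuous_const.fun_add (continuous_id'.fun_mul continuous_const)).tendsto
    0).mono_left nhdsWithin_le_nhds) (mem_of_superset (Ioo_mem_nhdsGT one_pos) key)
  linarith

theorem GP.lower_card (X : GP G Z) (d : ℝ) (k : ℕ) : X.Lower d k (1 / (X.S k).card) := by
  intro ι F w L hw hL
  have a : ∑ i ∈ F, w i ≤ ∑ x ∈ X.S k, wtA F w fun i => X.Mt k (L i) x := by
    refine le_trans (le_of_eq ?_) ((wt_mono (p := fun _ => True) hw fun i hi _ => ?_).trans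
      (wt_exists_le hw _ fun x i => X.Mt k (L i) x))
    · simp [wtA]
    · obtain ⟨ξ, hξ, -⟩ := (hL i hi).2
      obtain ⟨x, h1, h2⟩ := X.net k ξ
      refine ⟨x, X.mem_S.2 h1, ξ, hξ, ?_⟩
      linarith [mul_pos (one_pos.trans_le X.C_ge) (pow_pos X.q_pos k)]
  rw [one_div_mul_eq_div]
  exact div_le_of_le_mul₀ (Nat.cast_nonneg _) (Finset.sum_nonneg fun _ _ => sq_nonneg _)
    ((pow_le_pow_left₀ (Finset.sum_nonneg fun i _ => hw i) a 2).trans
      (sq_sum_le_card_mul_sum_sq.trans_eq (mul_comm _ _)))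

theorem GP.adm_of_lower (X : GP G Z) {k : ℕ} {m : ℝ} (hm : 0 < m) (h : X.Lower d k m) :
    ∃ ρ : G → ℝ, (∀ x, 0 ≤ ρ x) ∧ ∑ x ∈ X.S k, ρ x ^ 2 ≤ 1 / m ∧ X.Adm k (2 * X.C) d ρ := by
  classical
  let ι := {T : Finset G // ∃ K, DS d K ∧ T = (X.S k).filter (X.Mt k K)}
  have : PathConnectedSpace unitInterval := isPathConnected_iff_pathConnectedSpace.1
    ((convex_Icc (0 : ℝ) 1).isPathConnected ⟨0, le_rfl, zero_le_one⟩)
  have hγ : ∀ γ : C(unitInterval, Z), d ≤ dist (γ 0) (γ 1) → DS d (range γ) := fun γ h =>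
    ⟨isPathConnected_range γ.continuous, _, mem_range_self 0, _, mem_range_self 1, h⟩
  rcases isEmpty_or_nonempty ι with h0 | h0
  · exact ⟨0, fun _ => le_rfl, by simp [hm.le], fun γ h => h0.elim ⟨_, _, hγ γ h, rfl⟩⟩
  have : Finite ι := (X.S k).powerset.finite_toSet.subset fun T ⟨K, _, e⟩ =>
    e ▸ Finset.mem_powerset.2 (Finset.filter_subset _ _)
  have := Fintype.ofFinite ι
  choose L hL he using fun T : ι => T.2
  obtain ⟨w, w0, w1, hw⟩ := min_prim (X.S k) fun (i : ι) x => if X.Mt k (L i) x then 1 else 0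
  have a := h ι Finset.univ w L w0 fun i _ => hL i
  simp only [mul_ite, mul_one, mul_zero] at hw
  simp only [w1, one_pow, mul_one, GP.en, wt_eq] at a
  have E0 := hm.trans_le a
  refine ⟨fun x => (∑ i, if X.Mt k (L i) x then w i else 0) /
    ∑ x ∈ X.S k, (∑ i, if X.Mt k (L i) x then w i else 0) ^ 2, fun x => div_nonneg
      (Finset.sum_nonneg fun i _ => ite_nonneg (w0 i) le_rfl) E0.le, ?_, fun γ hd => ?_⟩
  · simp only [div_pow, ← Finset.sum_div]
    rw [sq (∑ x ∈ X.S k, _), div_mul_cancel_left₀ E0.ne', ← one_div]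
    exact one_div_le_one_div_of_le hm a
  · have b := hw ⟨_, _, hγ γ hd, rfl⟩
    rw [← Finset.sum_filter, ← he] at b
    rw [← Finset.sum_div, one_le_div E0]
    refine b.trans_eq (Finset.sum_congr (Finset.filter_congr fun x _ => ?_) fun _ _ => rfl)
    simp [GP.Mt]

end Vale.Agent.P198
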