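import Vale.Agent.P198.A.Primal
import Vale.Agent.P198.A.Disc

/-! P198 A/Record: record levels.
The set `{m | Lower d k m}` is a closed lower set containing `1 / card > 0`; it is bounded above (else `Lower d j m` for all `j, m`: there is no `DS d` set);
`μ k` = its supremum. For `ε` pick `k₀` with `μ k₀ < ε`, `k` = a minimizer of `μ` on `range (k₀ + 1)`, `m = μ k`; `¬ Lower d k (2 m)` gives a family,
normalize it (the total weight is positive), pigeonhole on the frames (`wt_exists_le`: a frame with weight `≥ 1 / n`), restrict, renormalize, `trim` (the energy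
decreases): `P = 2 n ^ 2`. `1 / card (S k) ≤ m` and `GP.cone` force `k` large. A finite pigeonhole (least `ε`) gives one frame for all `ε`.
Auxiliary names end in `_rec`. -/

namespace Vale.Agent.P198
open Set Metric Filter Topology
open scoped Pointwise
variable {G Z : Type} [Group G] [MetricSpace Z] [CompactSpace Z] [MulAction G Z]
  [ContinuousConstSMul G Z] {d : ℝ}

omit [CompactSpace Z] [ContinuousConstSMul G Z] in
theorem en_nonneg_rec (X : GP G Z) (k : ℕ) {ι : Type} (F : Finset ι) (w : ι → ℝ) (L : ι → Set Z) :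
    0 ≤ X.en k F w L := Finset.sum_nonneg fun _ _ => sq_nonneg _

omit [CompactSpace Z] [ContinuousConstSMul G Z] in
theorem lower_mono_rec (X : GP G Z) {k : ℕ} {m m' : ℝ} (h : X.Lower d k m) (hm : m' ≤ m) :
    X.Lower d k m' := fun ι F w L hw hL =>
  (mul_le_mul_of_nonneg_right hm (sq_nonneg _)).trans (h ι F w L hw hL)

omit [CompactSpace Z] [ContinuousConstSMul G Z] in
theorem exists_ds_rec (X : GP G Z) (h : ¬ ∃ m > 0, ∀ k, X.Lower d k m) : ∃ K : Set Z, DS d K := by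
  by_contra hK
  refine h ⟨1, one_pos, fun k ι F w L _ hL => ?_⟩
  have hF : F = ∅ := Finset.eq_empty_of_forall_notMem fun i hi => hK ⟨_, hL i hi⟩
  subst hF
  simpa using en_nonneg_rec X k ∅ w L

theorem exists_mu_rec (X : GP G Z) {K : Set Z} (hK : DS d K) : ∃ μ : ℕ → ℝ, ∀ k,
    X.Lower d k (μ k) ∧ ∀ m, X.Lower d k m → m ≤ μ k := by
  refine ⟨fun k => sSup {m | X.Lower d k m}, fun k => ?_⟩
  have hb : BddAbove {m | X.Lower d k m} := by
    refine ⟨X.en k (Finset.univ : Finset Unit) (fun _ => 1) fun _ => K, fun m hm => ?_⟩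
    simpa using hm Unit Finset.univ (fun _ => 1) (fun _ => K) (fun _ => zero_le_one) fun _ _ => hK
  refine ⟨fun ι F w L hw hL => ?_, fun m hm => le_csSup hb hm⟩
  rcases (sq_nonneg (∑ i ∈ F, w i)).eq_or_lt with h0 | h0
  · rw [← h0, mul_zero]
    exact en_nonneg_rec X k F w L
  · rw [← le_div_iff₀ h0]
    exact csSup_le ⟨_, X.lower_card d k⟩ fun m hm => (le_div_iff₀ h0).2 (hm ι F w L hw hL)

omit [CompactSpace Z] [ContinuousConstSMul G Z] in
theorem card_pos_rec (X : GP G Z) (ξ : Z) (k : ℕ) : 0 < ((X.S k).card : ℝ) := by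
  obtain ⟨x, hx, -⟩ := X.net k ξ
  exact_mod_cast Finset.card_pos.2 ⟨x, X.mem_S.2 hx⟩

omit [CompactSpace Z] [ContinuousConstSMul G Z] in
theorem en_le_rec (X : GP G Z) (k : ℕ) {ι : Type} {F F' : Finset ι} (hF : F' ⊆ F) {w : ι → ℝ}
    (hw : ∀ i, 0 ≤ w i) {L L' : ι → Set Z} (hL : ∀ i ∈ F', L' i ⊆ L i) {W : ℝ} (hW : 0 < W) :
    X.en k F' (fun i => w i / W) L' ≤ X.en k F w L / W ^ 2 := by
  classical
  unfold GP.en
  rw [Finset.sum_div]
  refine Finset.sum_le_sum fun x _ => ?_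
  rw [← div_pow]
  refine pow_le_pow_left₀ (wt_nonneg fun i => div_nonneg (hw i) hW.le) ?_ 2
  unfold wtA
  rw [← Finset.sum_div]
  refine div_le_div_of_nonneg_right ?_ hW.le
  refine Finset.sum_le_sum_of_subset_of_nonneg (fun i hi => ?_) fun i _ _ => hw i
  simp only [Finset.mem_filter] at hi ⊢
  obtain ⟨hi, ξ, hξ, h⟩ := hi
  exact ⟨hF hi, ξ, hL i hi hξ, h⟩

omit [ContinuousConstSMul G Z] in
theorem one_rec (X : GP G Z) (hd : 0 < d) {s : Finset (Frame Z d)}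
    (hs : ∀ a b : Z, d ≤ dist a b → ∃ Φ ∈ s, a ∈ Φ.D₁ ∧ b ∈ Φ.D₂) {k : ℕ} {m : ℝ} (hm : 0 < m)
    (hlow : ∀ j ≤ k, X.Lower d j m) (hn : ¬ X.Lower d k (2 * m)) :
    ∃ Φ ∈ s, ∃ c : Conf X Φ (2 * (s.card : ℝ) ^ 2), c.m = m ∧ c.k = k := by
  classical
  unfold GP.Lower at hn
  push Not at hn
  obtain ⟨ι, F, w, L, hw, hL, hlt⟩ := hn
  set W := ∑ i ∈ F, w i with hWdef
  have hW0 : 0 ≤ W := Finset.sum_nonneg fun i _ => hw i
  have hW : 0 < W := by
    refine hW0.lt_of_ne fun h0 => ?_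
    rw [← h0] at hlt
    have := en_nonneg_rec X k F w L
    nlinarith
  let Q : Frame Z d → ι → Prop := fun Φ i => (L i ∩ Φ.D₁).Nonempty ∧ (L i ∩ Φ.D₂).Nonempty
  have h1 : W ≤ ∑ Φ ∈ s, wtA F w (Q Φ) := by
    refine le_trans (le_of_eq ?_) (wt_exists_le hw s Q)
    rw [wt_eq]
    refine Finset.sum_congr rfl fun i hi => (if_pos ?_).symm
    obtain ⟨-, a, ha, b, hb, hab⟩ := hL i hi
    obtain ⟨Φ, hΦ, h1, h2⟩ := hs a b hab
    exact ⟨Φ, hΦ, ⟨a, ha, h1⟩, ⟨b, hb, h2⟩⟩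
  have hne : s.Nonempty := Finset.nonempty_of_sum_ne_zero (hW.trans_le h1).ne'
  have hn0 : (0 : ℝ) < s.card := by exact_mod_cast hne.card_pos
  obtain ⟨Φ, hΦ, h2⟩ : ∃ Φ ∈ s, W / s.card ≤ wtA F w (Q Φ) := by
    refine Finset.exists_le_of_sum_le hne ?_
    rw [Finset.sum_const, nsmul_eq_mul, mul_div_cancel₀ _ hn0.ne']
    exact h1
  have h3 : ∀ i, ∃ K' : Set Z, i ∈ F.filter (Q Φ) → K' ⊆ L i ∧ Leaf Φ K' := by
    intro i
    by_cases hi : i ∈ F.filter (Q Φ)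
    · obtain ⟨hi', ⟨a, ha⟩, ⟨b, hb⟩⟩ := Finset.mem_filter.1 hi
      obtain ⟨K', h4, h5⟩ := trim hd Φ (hL i hi').1 ha hb
      exact ⟨K', fun _ => ⟨h4, h5⟩⟩
    · exact ⟨∅, fun h => (hi h).elim⟩
  choose L' hL' using h3
  set W' := ∑ i ∈ F.filter (Q Φ), w i with hW'def
  have h4 : W / s.card ≤ W' := by
    refine h2.trans (le_of_eq ?_)
    unfold wtA
    congr
  have hW' : 0 < W' := (div_pos hW hn0).trans_le h4
  have h5 := en_le_rec X k (Finset.filter_subset (Q Φ) F) hw (fun i hi => (hL' i hi).1) hW'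
  refine ⟨Φ, hΦ, ⟨ι, F.filter (Q Φ), fun i => w i / W', L', k, m,
    fun i => div_nonneg (hw i) hW'.le, ?_, fun i hi => (hL' i hi).2, hm, h5.trans ?_, hlow⟩, rfl, rfl⟩
  · rw [← Finset.sum_div, div_self hW'.ne']
  · rw [div_le_iff₀ (by positivity)]
    rw [div_le_iff₀ hn0] at h4
    have h6 : W ^ 2 ≤ (W' * s.card) ^ 2 := pow_le_pow_left₀ hW0 h4 2
    nlinarith

theorem GP.exists_conf (X : GP G Z) (hd : 0 < d) (h : ¬ ∃ m > 0, ∀ k, X.Lower d k m) :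
    ∃ (Φ : Frame Z d) (P : ℝ), 1 ≤ P ∧ ∀ ε > 0, ∃ c : Conf X Φ P, c.m ≤ ε ∧ X.q ^ c.k ≤ ε := by
  obtain ⟨K, hK⟩ := exists_ds_rec X h
  obtain ⟨μ, hμ⟩ := exists_mu_rec X hK
  obtain ⟨s, hs⟩ := exists_frames X.sph hd
  obtain ⟨-, D, hD2, hD, -⟩ := X.cone
  obtain ⟨-, a, -, b, -, hab⟩ := hK
  obtain ⟨Φ₀, hΦ₀, -⟩ := hs a b hab
  have hne : s.Nonempty := ⟨Φ₀, hΦ₀⟩
  have hn1 : (1 : ℝ) ≤ s.card := by exact_mod_cast hne.card_pos
  have hD1 : (1 : ℝ) < D := by exact_mod_cast hD2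
  have hlow : ∀ k, 1 / (D : ℝ) ^ k ≤ μ k := by
    intro k
    refine le_trans (one_div_le_one_div_of_le (card_pos_rec X a k) ?_)
      ((hμ k).2 _ (X.lower_card d k))
    exact_mod_cast (Finset.card_filter_le _ _).trans (hD k)
  have key : ∀ ε > 0, ∃ Φ ∈ s, ∃ c : Conf X Φ (2 * (s.card : ℝ) ^ 2),
      c.m ≤ ε ∧ X.q ^ c.k ≤ ε := by
    intro ε hε
    obtain ⟨N, hN⟩ := exists_pow_lt_of_lt_one hε X.q_lt
    have hε' : 0 < min ε (1 / (D : ℝ) ^ N) := lt_min hε (by positivity)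
    obtain ⟨k₀, hk₀⟩ : ∃ k₀, μ k₀ < min ε (1 / (D : ℝ) ^ N) := by
      by_contra hc
      push Not at hc
      exact h ⟨_, hε', fun k => lower_mono_rec X (hμ k).1 (hc k)⟩
    obtain ⟨k, hk, hmin⟩ := Finset.exists_min_image (Finset.range (k₀ + 1)) μ
      ⟨0, Finset.mem_range.2 (Nat.succ_pos _)⟩
    have hm : 0 < μ k := lt_of_lt_of_le (by positivity) (hlow k)
    have h1 : μ k < min ε (1 / (D : ℝ) ^ N) :=
      (hmin k₀ (Finset.mem_range.2 (Nat.lt_succ_self _))).trans_lt hk₀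
    obtain ⟨Φ, hΦ, c, h2, h3⟩ := one_rec X hd hs hm
      (fun j hj => lower_mono_rec X (hμ j).1 (hmin j (Finset.mem_range.2
        (hj.trans_lt (Finset.mem_range.1 hk)))))
      (fun hh => by linarith [(hμ k).2 _ hh])
    refine ⟨Φ, hΦ, c, h2 ▸ (h1.trans_le (min_le_left _ _)).le, ?_⟩
    have h4 : (D : ℝ) ^ N < D ^ k :=
      lt_of_one_div_lt_one_div (by positivity) ((hlow k).trans_lt (h1.trans_le (min_le_right _ _)))
    have h5 : N ≤ k := ((pow_lt_pow_iff_right₀ hD1).1 h4).le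
    rw [h3]
    exact (pow_le_pow_of_le_one X.q_pos.le X.q_lt.le h5).trans hN.le
  by_contra hc
  push Not at hc
  have h6 := fun Φ => hc Φ (2 * (s.card : ℝ) ^ 2) (by nlinarith)
  choose e he hce using h6
  obtain ⟨Φ₁, -, hmin⟩ := Finset.exists_min_image s e hne
  obtain ⟨Φ, hΦ, c, h7, h8⟩ := key (e Φ₁) (he Φ₁)
  exact absurd (hce Φ c (h7.trans (hmin Φ hΦ))) (not_lt.2 (h8.trans (hmin Φ hΦ)))

end Vale.Agent.P198
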