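import Vale.Agent.P198.A.Defs

/-! P198 A/Super: superposition of the zoomed leaves.
`sub_path`: stop a path at the first time it is at distance `s`. `super`: `d₁ = 1 / (C ^ 2 (C + 1))`. For a selected pair `(i, g)` with witness `ξ` let `K i g` be given by `sub_path` with `s = q ^ J`
(the leaf has points in `D₁` and `D₂`, one of them is `d / 4`-far from `ξ`); `g⁻¹ • K i g` is a `DS d` set by `m1` for `g⁻¹` (`Pp g ≤ (C + 1) q ^ J` on it). Apply `c.low (k - J)`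
to the family indexed by the selected pairs. `ρ' z = ∑ g, ρ g z`, at most `T` nonzero terms, so `ρ' z ^ 2 ≤ T ∑ g, ρ g z ^ 2`; `ρ g z ≤ ∑ x ∈ Nb g z, ρ x` where `Nb g z` = the `x ∈ S k`
with `dist (π x) (π g) ≤ (2 C + 1) q ^ J` and `dist (g⁻¹ • π x) (π z) ≤ κ₁ q ^ (k - J)` (net point of the witness); `card (Nb g z) ≤ N` (two such `π x` are `κ₂ q ^ k`-close by `m1`; `count`), each `x`
lies in at most `N * N` sets `Nb g z` (`count` at levels `J` and `k - J`). Divide by `m`. Auxiliary names end in `_sup`. -/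

namespace Vale.Agent.P198
open Set Metric Filter Topology
open scoped Pointwise
variable {G Z : Type} [Group G] [MetricSpace Z] [CompactSpace Z] [MulAction G Z]
  [ContinuousConstSMul G Z] {d : ℝ}

theorem sub_path {K : Set Z} (hK : IsPathConnected K) {ξ ζ : Z} (hξ : ξ ∈ K) (hζ : ζ ∈ K) {s : ℝ}
    (hs : 0 ≤ s) (h : s ≤ dist ζ ξ) : ∃ K' ⊆ K ∩ closedBall ξ s, IsPathConnected K' ∧ ξ ∈ K' ∧
      ∃ ω ∈ K', dist ω ξ = s := by
  obtain ⟨γ, hγ⟩ := hK.joinedIn ξ hξ ζ hζ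
  have hc : Continuous fun t : ℝ => dist (γ.extend t) ξ := γ.continuous_extend.dist continuous_const
  have hiv : ∀ t : ℝ, 0 ≤ t → s ≤ dist (γ.extend t) ξ → ∃ t' ∈ Icc 0 t, dist (γ.extend t') ξ = s :=
    fun t ht h => intermediate_value_Icc ht hc.continuousOn ⟨by simpa using hs, h⟩
  have hS : IsCompact (Icc (0 : ℝ) 1 ∩ {t | dist (γ.extend t) ξ = s}) :=
    isCompact_Icc.inter_right (isClosed_eq hc continuous_const)
  obtain ⟨t₀, ⟨h0, h1⟩, h2⟩ := hS.exists_isLeast (hiv 1 zero_le_one (by simpa using h))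
  refine ⟨γ.extend '' Icc 0 t₀, ?_,
    ((convex_Icc 0 t₀).isPathConnected ⟨0, le_rfl, h0.1⟩).image γ.continuous_extend,
    ⟨0, ⟨le_rfl, h0.1⟩, γ.extend_zero⟩, _, ⟨t₀, ⟨h0.1, le_rfl⟩, rfl⟩, h1⟩
  rintro _ ⟨t, ht, rfl⟩
  refine ⟨by rw [γ.extend_apply ⟨ht.1, ht.2.trans h0.2⟩]; exact hγ _, ?_⟩
  by_contra h3
  rw [mem_closedBall, not_le] at h3
  obtain ⟨t', h4, h5⟩ := hiv t ht.1 h3.le
  have h6 : t = t₀ := ht.2.antisymm ((h2 ⟨⟨h4.1, h4.2.trans (ht.2.trans h0.2)⟩, h5⟩).trans h4.2)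
  rw [h6] at h3
  exact h3.ne' h1

theorem pp_sup (X : GP G Z) {g : G} {J : ℕ} (hg : X.ν g = J) {ξ : Z} {κ : ℝ} (hκ : 1 ≤ κ)
    (h : dist (X.π g) ξ ≤ κ * X.q ^ J) : Pp X.ν X.π X.q g ξ ≤ κ * X.q ^ J :=
  max_le h (by rw [hg]; exact le_mul_of_one_le_left (pow_pos X.q_pos J).le hκ)

theorem pp0_sup (X : GP G Z) (g : G) (ξ : Z) : 0 ≤ Pp X.ν X.π X.q g ξ :=
  dist_nonneg.trans (le_max_left _ _)

/-- Zooming expands distances near `π g` by about `q ^ (-J)`. -/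
theorem low_sup (X : GP G Z) {g : G} {J : ℕ} (hg : X.ν g = J) {ξ ζ : Z} {κ : ℝ} (hκ : 1 ≤ κ)
    (h1 : dist (X.π g) ξ ≤ κ * X.q ^ J) (h2 : dist (X.π g) ζ ≤ κ * X.q ^ J) :
    dist ξ ζ ≤ X.C * κ ^ 2 * X.q ^ J * dist (g⁻¹ • ξ) (g⁻¹ • ζ) := by
  have hq := pow_pos X.q_pos J
  have h3 := (X.m1' g ξ ζ).2
  rw [hg] at h3
  have h4 := mul_le_mul_of_nonneg_left (mul_le_mul_of_nonneg_left
    (mul_le_mul (pp_sup X hg hκ h1) (pp_sup X hg hκ h2) (pp0_sup X g ζ) (by positivity))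
    (dist_nonneg (x := g⁻¹ • ξ) (y := g⁻¹ • ζ))) X.C_pos.le
  exact le_of_mul_le_mul_left ((h3.trans h4).trans_eq (by ring)) hq

theorem up_sup (X : GP G Z) (g : G) (ξ ζ : Z) :
    dist (g⁻¹ • ξ) (g⁻¹ • ζ) * X.q ^ X.ν g ≤ X.C * dist ξ ζ := by
  have hq := pow_pos X.q_pos (X.ν g)
  have h4 : X.q ^ X.ν g * X.q ^ X.ν g ≤ Pp X.ν X.π X.q g ξ * Pp X.ν X.π X.q g ζ :=
    mul_le_mul (le_max_right _ _) (le_max_right _ _) hq.le (pp0_sup X g ξ)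
  have h5 := (mul_le_mul_of_nonneg_left h4 dist_nonneg).trans (X.m1' g ξ ζ).1
  exact le_of_mul_le_mul_left (le_of_eq_of_le (by ring) (h5.trans_eq (by ring))) hq

theorem piece_sup (X : GP G Z) (hd : d ≤ 1 / (X.C * (X.C + 1) ^ 2)) {Φ : Frame Z d} {L : Set Z}
    (hL : Leaf Φ L) {g : G} {J : ℕ} (hg : X.ν g = J) (hq : X.q ^ J ≤ d / 4) {ξ : Z} (hξ : ξ ∈ L)
    (h : dist ξ (X.π g) ≤ X.C * X.q ^ J) :
    ∃ K ⊆ L, (∀ ζ ∈ K, dist (X.π g) ζ ≤ (X.C + 1) * X.q ^ J) ∧ DS d (g⁻¹ • K) := by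
  have hq0 := pow_pos X.q_pos J
  have hC := X.C_pos
  obtain ⟨ζ, hζ, h1⟩ : ∃ ζ ∈ L, X.q ^ J ≤ dist ζ ξ := by
    obtain ⟨a, ha, -⟩ := hL.e₁
    obtain ⟨b, hb, -⟩ := hL.e₂
    have h1 := Φ.far a (Φ.sub₁ ha.2) b (Φ.sub₂ hb.2)
    have h2 := dist_triangle_right a b ξ
    rcases le_total (dist a ξ) (dist b ξ) with h3 | h3
    · exact ⟨b, hb.1, by linarith⟩
    · exact ⟨a, ha.1, by linarith⟩
  obtain ⟨K, h2, h3, h4, ω, h5, h6⟩ := sub_path hL.pc hξ hζ hq0.le h1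
  have h7 : ∀ ζ ∈ K, dist (X.π g) ζ ≤ (X.C + 1) * X.q ^ J := fun ζ hζ => by
    linarith [mem_closedBall.1 (h2 hζ).2, dist_triangle_right (X.π g) ζ ξ, dist_comm ξ (X.π g)]
  refine ⟨K, fun ζ hζ => (h2 hζ).1, h7, h3.image (continuous_const_smul g⁻¹),
    _, smul_mem_smul_set h5, _, smul_mem_smul_set h4, hd.trans ?_⟩
  have h8 := low_sup X hg (by linarith) (h7 ω h5) (h7 ξ h4)
  rw [h6] at h8
  rw [div_le_iff₀ (by positivity)]
  exact le_of_mul_le_mul_left ((mul_one _).trans_le (h8.trans_eq (by ring))) hq0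

theorem nb_sup (X : GP G Z) {g z : G} {J n : ℕ} (hg : X.ν g = J) {ζ : Z}
    (h1 : dist (X.π g) ζ ≤ (X.C + 1) * X.q ^ J)
    (h2 : dist (g⁻¹ • ζ) (X.π z) < 2 * X.C * X.q ^ n) :
    ∃ x, X.ν x = J + n ∧ dist ζ (X.π x) < 2 * X.C * X.q ^ (J + n) ∧
      dist (X.π g) (X.π x) ≤ (2 * X.C + 1) * X.q ^ J ∧
      dist (X.π z) (g⁻¹ • X.π x) ≤ (X.C ^ 2 + 2 * X.C) * X.q ^ n := by
  obtain ⟨x, h3, h4⟩ := X.net (J + n) ζ
  have hC := X.C_pos
  have h5 := mul_pos hC (pow_pos X.q_pos (J + n))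
  have h6 : X.C * X.q ^ (J + n) ≤ X.C * X.q ^ J := mul_le_mul_of_nonneg_left
    (pow_le_pow_of_le_one X.q_pos.le X.q_lt.le (Nat.le_add_right _ _)) hC.le
  have h7 : dist (g⁻¹ • ζ) (g⁻¹ • X.π x) ≤ X.C ^ 2 * X.q ^ n := by
    have h8 := (up_sup X g ζ (X.π x)).trans (mul_le_mul_of_nonneg_left h4 hC.le)
    rw [hg] at h8
    exact le_of_mul_le_mul_right (h8.trans_eq (by ring)) (pow_pos X.q_pos J)
  exact ⟨x, h3, by linarith, by linarith [dist_triangle (X.π g) ζ (X.π x)],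
    by linarith [dist_triangle_left (X.π z) (g⁻¹ • X.π x) (g⁻¹ • ζ)]⟩

open Classical in
theorem card_sup (X : GP G Z) : ∃ N : ℕ, ∀ (g z : G) (J n : ℕ), X.ν g = J →
    ((X.S (J + n)).filter fun x => dist (X.π g) (X.π x) ≤ (2 * X.C + 1) * X.q ^ J ∧
      dist (X.π z) (g⁻¹ • X.π x) ≤ (X.C ^ 2 + 2 * X.C) * X.q ^ n).card ≤ N := by
  obtain ⟨N, hN⟩ := X.count (X.C * (2 * X.C + 1) ^ 2 * (2 * (X.C ^ 2 + 2 * X.C)))
  refine ⟨N, fun g z J n hg => ?_⟩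
  rcases ((X.S (J + n)).filter fun x => dist (X.π g) (X.π x) ≤ (2 * X.C + 1) * X.q ^ J ∧
      dist (X.π z) (g⁻¹ • X.π x) ≤ (X.C ^ 2 + 2 * X.C) * X.q ^ n).eq_empty_or_nonempty
    with h | ⟨x₀, h⟩
  · simp [h]
  refine (Finset.card_le_card fun x hx => ?_).trans (hN (J + n) (X.π x₀))
  rw [Finset.mem_filter] at h hx ⊢
  have hC := X.C_pos
  have hq := pow_pos X.q_pos J
  refine ⟨hx.1, (low_sup X hg (by linarith) hx.2.1 h.2.1).trans ?_⟩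
  have h1 : dist (g⁻¹ • X.π x) (g⁻¹ • X.π x₀) ≤ 2 * (X.C ^ 2 + 2 * X.C) * X.q ^ n := by
    linarith [dist_triangle_left (g⁻¹ • X.π x) (g⁻¹ • X.π x₀) (X.π z), hx.2.2, h.2.2]
  exact (mul_le_mul_of_nonneg_left h1 (by positivity)).trans_eq (by ring)

theorem sq_sup {α : Type} (s : Finset α) (f : α → ℝ) {T : ℝ} (h : (s.card : ℝ) ≤ T) :
    (∑ a ∈ s, f a) ^ 2 ≤ T * ∑ a ∈ s, f a ^ 2 :=
  sq_sum_le_card_mul_sum_sq.trans
    (mul_le_mul_of_nonneg_right h (Finset.sum_nonneg fun _ _ => sq_nonneg _))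

theorem ite_sup {α : Type} (s : Finset α) (p : α → Prop) [DecidablePred p] {a : ℝ} (ha : 0 ≤ a)
    {N : ℕ} (h : (s.filter p).card ≤ N) : (∑ x ∈ s, if p x then a else 0) ≤ N * a := by
  rw [← Finset.sum_filter, Finset.sum_const, nsmul_eq_mul]
  exact mul_le_mul_of_nonneg_right (Nat.cast_le.2 h) ha

theorem swap_sup {α : Type} (SZ SG SX : Finset α) (R : α → α → Prop) (Q : α → α → α → Prop)
    [∀ g x, Decidable (R g x)] [∀ g x z, Decidable (Q g x z)]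
    [∀ g z, DecidablePred fun x => R g x ∧ Q g x z] {f : α → ℝ} (hf : ∀ x, 0 ≤ f x)
    {N M : ℕ} (h1 : ∀ x, (SG.filter fun g => R g x).card ≤ N)
    (h2 : ∀ g x, (SZ.filter fun z => Q g x z).card ≤ M) :
    ∑ z ∈ SZ, ∑ g ∈ SG, ∑ x ∈ SX.filter (fun x => R g x ∧ Q g x z), f x ≤
      N * M * ∑ x ∈ SX, f x := by
  simp only [Finset.sum_filter]
  rw [Finset.sum_comm, Finset.mul_sum]
  simp only [Finset.sum_comm (s := SZ)]
  rw [Finset.sum_comm]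
  refine Finset.sum_le_sum fun x _ => ?_
  rw [mul_assoc]
  refine le_trans (Finset.sum_le_sum fun g _ => ?_)
    (ite_sup SG _ (mul_nonneg (Nat.cast_nonneg M) (hf x)) (h1 x))
  by_cases h : R g x
  · simpa [h] using ite_sup SZ _ (hf x) (h2 g x)
  · simp [h]

open Classical in
theorem super (X : GP G Z) : ∃ d₁ > 0, ∃ A > 0, ∀ d ≤ d₁, ∀ (Φ : Frame Z d) (P : ℝ)
    (c : Conf X Φ P) (J : ℕ) (T : ℝ) (sel : c.ι → G → Prop), X.q ^ J ≤ d / 4 → J ≤ c.k → 0 ≤ T →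
    (∀ i g, sel i g → ∃ ξ ∈ c.L i, dist ξ (X.π g) ≤ X.C * X.q ^ J) →
    (∀ z ∈ X.S (c.k - J), (((X.S J).filter fun g => ∃ i ∈ c.F, sel i g ∧
      X.Mt (c.k - J) (g⁻¹ • c.L i) z).card : ℝ) ≤ T) →
    (∑ i ∈ c.F, c.w i * ((X.S J).filter (sel i)).card) ^ 2 ≤ A * P * T := by
  obtain ⟨N₁, hN₁⟩ := card_sup X
  obtain ⟨N₂, hN₂⟩ := X.count (2 * X.C + 1)
  obtain ⟨N₃, hN₃⟩ := X.count (X.C ^ 2 + 2 * X.C)
  have hC := X.C_pos
  refine ⟨1 / (X.C * (X.C + 1) ^ 2), by positivity, N₁ * (N₂ * N₃) + 1, by positivity,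
    fun d hd Φ P c J T sel hq hJ hT hsel hcard => ?_⟩
  obtain ⟨n, hn⟩ := Nat.exists_eq_add_of_le hJ
  have hn' : c.k - J = n := by omega
  rw [hn'] at hcard
  have hK : ∀ (i : c.ι) (g : G), ∃ K : Set Z, i ∈ c.F → g ∈ X.S J → sel i g → K ⊆ c.L i ∧
      (∀ ζ ∈ K, dist (X.π g) ζ ≤ (X.C + 1) * X.q ^ J) ∧ DS d (g⁻¹ • K) := by
    intro i g
    by_cases h : i ∈ c.F ∧ g ∈ X.S J ∧ sel i g
    · obtain ⟨ξ, h1, h2⟩ := hsel i g h.2.2
      obtain ⟨K, hK⟩ := piece_sup X hd (c.leaf i h.1) (X.mem_S.1 h.2.1) hq h1 h2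
      exact ⟨K, fun _ _ _ => hK⟩
    · exact ⟨∅, fun h1 h2 h3 => absurd ⟨h1, h2, h3⟩ h⟩
  choose K hK using hK
  have h1 := c.low n (by omega) (c.ι × G) ((c.F ×ˢ X.S J).filter fun p => sel p.1 p.2)
    (fun p => c.w p.1) (fun p => p.2⁻¹ • K p.1 p.2) (fun p => c.nonneg p.1) fun p hp => by
      rw [Finset.mem_filter, Finset.mem_product] at hp
      exact (hK _ _ hp.1.1 hp.1.2 hp.2).2.2
  have h2 : ∑ p ∈ (c.F ×ˢ X.S J).filter fun p => sel p.1 p.2, c.w p.1 =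
      ∑ i ∈ c.F, c.w i * ((X.S J).filter (sel i)).card := by
    rw [Finset.sum_filter, Finset.sum_product]
    refine Finset.sum_congr rfl fun i _ => ?_
    dsimp only
    rw [← Finset.sum_filter, Finset.sum_const, nsmul_eq_mul, mul_comm]
  rw [h2] at h1
  set ρ : G → ℝ := fun x => wtA c.F c.w fun i => X.Mt (J + n) (c.L i) x with hρ
  set Nb : G → G → Finset G := fun g z => (X.S (J + n)).filter fun x =>
    dist (X.π g) (X.π x) ≤ (2 * X.C + 1) * X.q ^ J ∧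
      dist (X.π z) (g⁻¹ • X.π x) ≤ (X.C ^ 2 + 2 * X.C) * X.q ^ n with hNb
  have h3 : ∀ z ∈ X.S n, wtA ((c.F ×ˢ X.S J).filter fun p => sel p.1 p.2) (fun p => c.w p.1)
      (fun p => X.Mt n (p.2⁻¹ • K p.1 p.2) z) ^ 2 ≤
        T * N₁ * ∑ g ∈ X.S J, ∑ x ∈ Nb g z, ρ x ^ 2 := by
    intro z hz
    have h4 : wtA ((c.F ×ˢ X.S J).filter fun p => sel p.1 p.2) (fun p => c.w p.1)
        (fun p => X.Mt n (p.2⁻¹ • K p.1 p.2) z) ≤
        ∑ g ∈ (X.S J).filter fun g => ∃ i ∈ c.F, sel i g ∧ X.Mt n (g⁻¹ • c.L i) z,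
          ∑ x ∈ Nb g z, ρ x := by
      rw [wt_eq, Finset.sum_filter, Finset.sum_product_right, Finset.sum_filter]
      refine Finset.sum_le_sum fun g hg => ?_
      have h5 : (∑ i ∈ c.F, if sel i g then
          if X.Mt n (g⁻¹ • K i g) z then c.w i else 0 else 0) =
          wtA c.F c.w fun i => sel i g ∧ X.Mt n (g⁻¹ • K i g) z := by
        rw [wt_eq]
        refine Finset.sum_congr rfl fun i _ => ?_
        by_cases h : sel i g <;> simp [h]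
      refine h5.trans_le ?_
      split_ifs with h6
      · refine (wt_mono c.nonneg fun i hi h7 => ?_).trans (wt_exists_le c.nonneg (Nb g z) _)
        obtain ⟨_, ⟨ζ, h8, rfl⟩, h9⟩ := h7.2
        obtain ⟨a1, a2, -⟩ := hK i g hi hg h7.1
        obtain ⟨x, b1, b2, b3⟩ := nb_sup X (X.mem_S.1 hg) (a2 ζ h8) h9
        exact ⟨x, Finset.mem_filter.2 ⟨X.mem_S.2 b1, b3⟩, ζ, a1 h8, b2⟩
      · by_contra h7
        obtain ⟨i, hi, h8, ζ, h9, h10⟩ := exists_of_wt_pos (not_le.1 h7)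
        exact h6 ⟨i, hi, h8, ζ, smul_set_mono (hK i g hi hg h8).1 h9, h10⟩
    refine (pow_le_pow_left₀ (wt_nonneg fun p : c.ι × G => c.nonneg p.1) h4 2).trans
      ((sq_sup _ _ (hcard z hz)).trans ?_)
    rw [mul_assoc]
    refine mul_le_mul_of_nonneg_left ((Finset.sum_le_sum_of_subset_of_nonneg
      (Finset.filter_subset _ _) fun _ _ _ => sq_nonneg _).trans ?_) hT
    rw [Finset.mul_sum]
    exact Finset.sum_le_sum fun g hg => sq_sup _ _ (Nat.cast_le.2 (hN₁ g z J n (X.mem_S.1 hg)))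
  have h4 := swap_sup (X.S n) (X.S J) (X.S (J + n))
    (fun g x => dist (X.π g) (X.π x) ≤ (2 * X.C + 1) * X.q ^ J)
    (fun g x z => dist (X.π z) (g⁻¹ • X.π x) ≤ (X.C ^ 2 + 2 * X.C) * X.q ^ n)
    (f := fun x => ρ x ^ 2) (fun x => sq_nonneg _) (fun x => hN₂ J _) fun g x => hN₃ n _
  have h5 : ∑ x ∈ X.S (J + n), ρ x ^ 2 ≤ P * c.m := by
    have := c.up
    rwa [hn] at this
  have h6 : 0 ≤ P * c.m := (Finset.sum_nonneg fun _ _ => sq_nonneg _).trans h5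
  have h7 := h1.trans (Finset.sum_le_sum h3)
  rw [← Finset.mul_sum] at h7
  have h8 := h7.trans (mul_le_mul_of_nonneg_left
    (h4.trans (mul_le_mul_of_nonneg_left h5 (by positivity))) (by positivity))
  refine le_of_mul_le_mul_left (h8.trans ?_) c.pos
  nlinarith [mul_nonneg h6 hT]

end Vale.Agent.P198
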