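import Vale.Agent.P198.A.Esc

/-! P198 A/Thick: most leaves are good.
`GP.lip`: `m1` and `q ^ ν y⁻¹ ≤ Pp`. `schur`: `2 a b ≤ a ^ 2 + b ^ 2`. `thick_avg`: if `L i'` meets `thick t y (L i)` take `net` points `x', x` of level `k` of the two witnesses:
`Mt k (L i') x'`, `Mt k (L i) x`, `dist (π x') (y • π x) ≤ κ q ^ k`; this relation has multiplicities `≤ N` both ways (`count` at `y • π x`, and at `y⁻¹ • π x'` by `lip`).
`good_most`: Markov inequality, union bound `wt_exists_le`, `esc_small` is the hypothesis `hΛ`; choose `δ = β / (24 card B)`, then `ε`. Auxiliary names end in `_thk`. -/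

namespace Vale.Agent.P198
open Set Metric Filter Topology
open scoped Pointwise
variable {G Z : Type} [Group G] [MetricSpace Z] [CompactSpace Z] [MulAction G Z]
  [ContinuousConstSMul G Z] {d : ℝ}

theorem GP.lip (X : GP G Z) (y : G) (ξ ζ : Z) :
    dist (y • ξ) (y • ζ) ≤ X.C * X.q⁻¹ ^ X.ν y * dist ξ ζ := by
  have h := (X.m1 y ξ ζ).1
  have a0 : 0 < X.q ^ X.ν y := pow_pos X.q_pos _
  have h1 : ∀ ω, X.q ^ X.ν y ≤ Pp X.ν X.π X.q y⁻¹ ω := fun ω => by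
    rw [← X.wn.inv y]; exact le_max_right _ _
  have h2 := mul_le_mul_of_nonneg_left (mul_le_mul (h1 ξ) (h1 ζ) a0.le (a0.le.trans (h1 ξ)))
    (dist_nonneg (x := y • ξ) (y := y • ζ))
  rw [inv_pow, mul_right_comm, ← div_eq_mul_inv, le_div_iff₀ a0]
  refine le_of_mul_le_mul_right ?_ a0
  linarith

open Classical in
theorem schur {α β : Type} (s : Finset α) (t : Finset β) (R : α → β → Prop) (a : α → ℝ) (b : β → ℝ)
    (N : ℕ) (h1 : ∀ x ∈ s, (t.filter (R x)).card ≤ N)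
    (h2 : ∀ y ∈ t, (s.filter fun x => R x y).card ≤ N) :
    ∑ x ∈ s, ∑ y ∈ t.filter (R x), a x * b y ≤ N * (∑ x ∈ s, a x ^ 2 + ∑ y ∈ t, b y ^ 2) / 2 := by
  have e : ∑ x ∈ s, ∑ y ∈ t.filter (R x), b y ^ 2 =
      ∑ y ∈ t, ∑ _x ∈ s.filter (fun x => R x y), b y ^ 2 :=
    Finset.sum_comm' fun x y => by simp only [Finset.mem_filter]; tauto
  have a1 : ∑ x ∈ s, ∑ _y ∈ t.filter (R x), a x ^ 2 ≤ N * ∑ x ∈ s, a x ^ 2 := by
    rw [Finset.mul_sum]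
    refine Finset.sum_le_sum fun x hx => ?_
    rw [Finset.sum_const, nsmul_eq_mul]
    exact mul_le_mul_of_nonneg_right (Nat.cast_le.2 (h1 x hx)) (sq_nonneg _)
  have a2 : ∑ x ∈ s, ∑ y ∈ t.filter (R x), b y ^ 2 ≤ N * ∑ y ∈ t, b y ^ 2 := by
    rw [e, Finset.mul_sum]
    refine Finset.sum_le_sum fun y hy => ?_
    rw [Finset.sum_const, nsmul_eq_mul]
    exact mul_le_mul_of_nonneg_right (Nat.cast_le.2 (h2 y hy)) (sq_nonneg _)
  have a3 : 2 * ∑ x ∈ s, ∑ y ∈ t.filter (R x), a x * b y ≤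
      ∑ x ∈ s, ∑ _y ∈ t.filter (R x), a x ^ 2 + ∑ x ∈ s, ∑ y ∈ t.filter (R x), b y ^ 2 := by
    rw [← Finset.sum_add_distrib, Finset.mul_sum]
    refine Finset.sum_le_sum fun x _ => ?_
    rw [← Finset.sum_add_distrib, Finset.mul_sum]
    exact Finset.sum_le_sum fun y _ => by nlinarith [sq_nonneg (a x - b y)]
  linarith

open Classical in
theorem swap_thk {ι α : Type} (F : Finset ι) (w : ι → ℝ) (s : Finset α) (M : ι → α → Prop)
    (g : α → ℝ) : ∑ i ∈ F, w i * ∑ x ∈ s.filter (M i), g x =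
      ∑ x ∈ s, wtA F w (fun i => M i x) * g x := by
  simp only [wtA, Finset.mul_sum, Finset.sum_mul]
  exact Finset.sum_comm' fun i x => by simp only [Finset.mem_filter]; tauto

theorem markov_thk {ι : Type} {F : Finset ι} {w : ι → ℝ} (hw : ∀ i, 0 ≤ w i) {f : ι → ℝ}
    (hf : ∀ i, 0 ≤ f i) (δ : ℝ) : δ * wtA F w (fun i => δ < f i) ≤ ∑ i ∈ F, w i * f i := by
  rw [wt_eq, Finset.mul_sum]
  refine Finset.sum_le_sum fun i _ => ?_
  split_ifs with h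
  · rw [mul_comm]
    exact mul_le_mul_of_nonneg_left h.le (hw i)
  · rw [mul_zero]
    exact mul_nonneg (hw i) (hf i)

theorem thick_avg (X : GP G Z) (J : ℕ) (θ : ℝ) : ∃ A : ℝ, ∀ (Φ : Frame Z d) (P : ℝ)
    (c : Conf X Φ P), ∀ y ∈ X.B J,
      ∑ i ∈ c.F, c.w i * c.mass (thick (θ * X.q ^ c.k) y (c.L i)) ≤ A * X.en c.k c.F c.w c.L := by
  classical
  have C0 := X.C_pos
  have q1 : 1 ≤ X.q⁻¹ := (one_le_inv₀ X.q_pos).2 X.q_lt.le
  obtain ⟨L, hL⟩ : ∃ L, L = X.C * X.q⁻¹ ^ J := ⟨_, rfl⟩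
  have L0 : 0 ≤ L := by rw [hL]; positivity
  have lip : ∀ y : G, X.ν y ≤ J → ∀ ξ ζ : Z, dist (y • ξ) (y • ζ) ≤ L * dist ξ ζ :=
    fun y hy ξ ζ => (X.lip y ξ ζ).trans (mul_le_mul_of_nonneg_right
      (hL ▸ mul_le_mul_of_nonneg_left (pow_le_pow_right₀ q1 hy) C0.le) dist_nonneg)
  obtain ⟨κ, hκ⟩ : ∃ κ, κ = X.C + θ + L * X.C := ⟨_, rfl⟩
  obtain ⟨N₁, h₁⟩ := X.count κ
  obtain ⟨N₂, h₂⟩ := X.count (L * κ)
  refine ⟨(N₁ + N₂ : ℕ), fun Φ P c y hy => ?_⟩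
  have hy1 := X.mem_B.1 hy
  have qk : 0 < X.C * X.q ^ c.k := mul_pos C0 (pow_pos X.q_pos _)
  obtain ⟨R, hR⟩ : ∃ R : G → G → Prop,
      R = fun x x' => dist (X.π x') (y • X.π x) ≤ κ * X.q ^ c.k := ⟨_, rfl⟩
  obtain ⟨ρ, hρ⟩ : ∃ ρ : G → ℝ, ρ = fun x => wtA c.F c.w fun i => X.Mt c.k (c.L i) x := ⟨_, rfl⟩
  have s1 := schur (X.S c.k) (X.S c.k) R ρ ρ (N₁ + N₂) (fun x _ => ?_) (fun x' _ => ?_)
  rotate_left
  · refine le_trans (Finset.card_le_card fun x' hx' => ?_)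
      ((h₁ c.k (y • X.π x)).trans (Nat.le_add_right _ _))
    obtain ⟨a, b⟩ := Finset.mem_filter.1 hx'
    rw [hR] at b
    exact Finset.mem_filter.2 ⟨a, b⟩
  · refine le_trans (Finset.card_le_card fun x hx => ?_)
      ((h₂ c.k (y⁻¹ • X.π x')).trans (Nat.le_add_left _ _))
    obtain ⟨a, b⟩ := Finset.mem_filter.1 hx
    rw [hR] at b
    have h := lip y⁻¹ (by rwa [X.wn.inv]) (X.π x') (y • X.π x)
    rw [inv_smul_smul, dist_comm] at h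
    refine Finset.mem_filter.2 ⟨a, h.trans ?_⟩
    rw [mul_assoc]
    exact mul_le_mul_of_nonneg_left b L0
  have s2 : ∀ i, c.mass (thick (θ * X.q ^ c.k) y (c.L i)) ≤
      ∑ x ∈ (X.S c.k).filter (X.Mt c.k (c.L i)), ∑ x' ∈ (X.S c.k).filter (R x), ρ x' := fun i => by
    refine le_trans (wt_mono c.nonneg (p' := fun i' => ∃ x ∈ (X.S c.k).filter (X.Mt c.k (c.L i)),
      ∃ x' ∈ (X.S c.k).filter (R x), X.Mt c.k (c.L i') x') ?_)
      ((wt_exists_le c.nonneg _ _).trans (Finset.sum_le_sum fun x _ => ?_))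
    · rintro i' - ⟨ξ, hξ, ζ, hζ, h⟩
      obtain ⟨x, x1, x2⟩ := X.net c.k ζ
      obtain ⟨x', x1', x2'⟩ := X.net c.k ξ
      refine ⟨x, Finset.mem_filter.2 ⟨X.mem_S.2 x1, ζ, hζ, by linarith⟩, x',
        Finset.mem_filter.2 ⟨X.mem_S.2 x1', ?_⟩, ξ, hξ, by linarith⟩
      have h1 := (lip y hy1 ζ (X.π x)).trans (mul_le_mul_of_nonneg_left x2 L0)
      have h2 := dist_triangle4 (X.π x') ξ (y • ζ) (y • X.π x)
      rw [dist_comm] at x2'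
      rw [hR, hκ]
      beta_reduce
      linarith
    · rw [hρ]
      exact wt_exists_le c.nonneg _ fun x' i' => X.Mt c.k (c.L i') x'
  have s3 : ∑ i ∈ c.F, c.w i * ∑ x ∈ (X.S c.k).filter (X.Mt c.k (c.L i)),
      ∑ x' ∈ (X.S c.k).filter (R x), ρ x' =
      ∑ x ∈ X.S c.k, ∑ x' ∈ (X.S c.k).filter (R x), ρ x * ρ x' := by
    rw [swap_thk c.F c.w (X.S c.k) (fun i x => X.Mt c.k (c.L i) x)]
    refine Finset.sum_congr rfl fun x _ => ?_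
    rw [← Finset.mul_sum, hρ]
  have e : X.en c.k c.F c.w c.L = ∑ x ∈ X.S c.k, ρ x ^ 2 := by rw [hρ]; rfl
  have s4 := Finset.sum_le_sum (s := c.F) fun i _ => mul_le_mul_of_nonneg_left (s2 i) (c.nonneg i)
  rw [s3] at s4
  rw [e]
  linarith

theorem good_most (X : GP G Z) {Φ : Frame Z d} {P Λ : ℝ}
    (hΛ : ∀ (c : Conf X Φ P) (p : Z) (s δ : ℝ), 0 ≤ δ →
      Disjoint (closedBall p (Λ * s)) (Φ.D₁ ∪ Φ.D₂) → wtA c.F c.w (c.Esc p s (Λ * s) δ) ≤ 12 * δ)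
    (J : ℕ) (θ κ : ℝ) {β : ℝ} (hβ : 0 < β) : ∃ δ : ℝ, ∃ ε > 0, ∀ c : Conf X Φ P, c.m ≤ ε →
      wtA c.F c.w (fun i => ¬ c.Good J θ κ Λ δ i) ≤ β := by
  classical
  obtain ⟨A, hA⟩ := thick_avg (d := d) X (2 * J) θ
  obtain ⟨n, hn⟩ : ∃ n : ℝ, n = (X.B (2 * J)).card := ⟨_, rfl⟩
  have n0 : 0 ≤ n := hn ▸ Nat.cast_nonneg _
  obtain ⟨δ, hδ⟩ : ∃ δ, δ = β / (24 * (n + 1)) := ⟨_, rfl⟩
  have δ0 : 0 < δ := by rw [hδ]; positivity
  have δ1 : δ * (24 * (n + 1)) = β := by rw [hδ]; field_simp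
  refine ⟨δ, 12 * δ ^ 2 / (|A| * |P| + 1), by positivity, fun c hm => ?_⟩
  rw [le_div_iff₀ (by positivity)] at hm
  have en0 : 0 ≤ X.en c.k c.F c.w c.L := Finset.sum_nonneg fun _ _ => sq_nonneg _
  have a1 : A * X.en c.k c.F c.w c.L ≤ 12 * δ ^ 2 := by
    have b1 := mul_le_mul_of_nonneg_right (le_abs_self A) en0
    have b2 := mul_le_mul_of_nonneg_left
      (c.up.trans (mul_le_mul_of_nonneg_right (le_abs_self P) c.pos.le)) (abs_nonneg A)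
    linarith [c.pos]
  have a2 : ∀ y ∈ X.B (2 * J),
      wtA c.F c.w (fun i => δ < c.mass (thick (θ * X.q ^ c.k) y (c.L i))) ≤ 12 * δ :=
    fun y hy => by
      have b1 := markov_thk (F := c.F) c.nonneg
        (f := fun i => c.mass (thick (θ * X.q ^ c.k) y (c.L i))) (fun i => wt_nonneg c.nonneg) δ
      refine le_of_mul_le_mul_left ?_ δ0
      linarith [hA Φ P c y hy]
  have a3 : ∀ y : G, wtA c.F c.w (fun i =>
      Disjoint (closedBall (X.π y) (Λ * (κ * X.q ^ X.ν y))) (Φ.D₁ ∪ Φ.D₂) ∧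
        c.Esc (X.π y) (κ * X.q ^ X.ν y) (Λ * (κ * X.q ^ X.ν y)) δ i) ≤ 12 * δ := fun y => by
    by_cases h : Disjoint (closedBall (X.π y) (Λ * (κ * X.q ^ X.ν y))) (Φ.D₁ ∪ Φ.D₂)
    · exact (wt_mono c.nonneg fun i _ hi => hi.2).trans (hΛ c _ _ δ δ0.le h)
    · by_contra h'
      obtain ⟨i, -, hi⟩ := exists_of_wt_pos (lt_of_le_of_lt (by positivity) (not_le.1 h'))
      exact h hi.1
  refine le_trans (wt_mono c.nonneg (p' := fun i => ∃ y ∈ X.B (2 * J),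
    δ < c.mass (thick (θ * X.q ^ c.k) y (c.L i)) ∨
      (Disjoint (closedBall (X.π y) (Λ * (κ * X.q ^ X.ν y))) (Φ.D₁ ∪ Φ.D₂) ∧
        c.Esc (X.π y) (κ * X.q ^ X.ν y) (Λ * (κ * X.q ^ X.ν y)) δ i)) fun i _ hi => ?_)
    ((wt_exists_le c.nonneg _ _).trans ?_)
  · by_contra h
    refine hi fun y hy => ⟨not_lt.1 fun h' => h ⟨y, hy, Or.inl h'⟩,
      fun h1 h2 => h ⟨y, hy, Or.inr ⟨h1, h2⟩⟩⟩
  · refine (Finset.sum_le_card_nsmul _ _ (12 * δ + 12 * δ) fun y hy =>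
      (wt_or_le c.nonneg).trans (add_le_add (a2 y hy) (a3 y))).trans ?_
    rw [nsmul_eq_mul, ← hn]
    linarith

end Vale.Agent.P198
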